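import Mathlib

/-!
P030, row NUM (helper822): circle averages bounded by finitely many arcs.

`circleAverage_le_arcs`  : N arcs, mean bound on every arc.
`circleAverage_le_quad`  : on the arc about `r e^{iθ_j}` the pointwise bound
   `f (r e^{i(θ_j+φ)}) ≤ b j + l j φ + k j |φ| + q j φ²` (`|φ| ≤ π/N`) gives
   `circleAverage f 0 r ≤ (1/N) Σ_j (b j + k j (π/N)/2 + q j (π/N)²/3)`.
`circleAverage_le_quad_half` : the same with `f (conj z) = f z`, arcs in the upper half circle only.
-/

namespace Vale.Agent.P030.H822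

open Real MeasureTheory intervalIntegral Set
open scoped BigOperators ComplexConjugate

noncomputable section

/-- the point of angle `θ` on the circle of radius `r` about `0` -/
theorem circleMap_zero_eq (r θ : ℝ) : circleMap 0 r θ = r * Complex.exp (θ * Complex.I) := by
  simp [circleMap]

theorem integral_quad {f : ℝ → ℝ} {t d b l k q : ℝ} (hd : 0 ≤ d)
    (hf : IntervalIntegrable f volume (t - d) (t + d))
    (h : ∀ φ ∈ Icc (-d) d, f (t + φ) ≤ b + l * φ + k * |φ| + q * φ ^ 2) :
    (∫ θ in (t - d)..(t + d), f θ) ≤ 2 * d * (b + k * d / 2 + q * d ^ 2 / 3) := by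
  have e1 : (∫ θ in (t - d)..(t + d), f θ) = ∫ φ in (-d)..d, f (t + φ) := by
    rw [intervalIntegral.integral_comp_add_left (f := f) (a := -d) (b := d) t]
    congr 1
  have hf' : IntervalIntegrable (fun φ => f (t + φ)) volume (-d) d := by
    have := hf.comp_add_left t
    convert this using 1 <;> ring
  have hg : IntervalIntegrable (fun φ : ℝ => b + l * φ + k * |φ| + q * φ ^ 2) volume (-d) d :=
    Continuous.intervalIntegrable (by fun_prop) _ _
  rw [e1]
  have hle : (∫ φ in (-d)..d, f (t + φ)) ≤ ∫ φ in (-d)..d, (b + l * φ + k * |φ| + q * φ ^ 2) :=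
    intervalIntegral.integral_mono_on (by linarith) hf' hg h
  refine hle.trans (le_of_eq ?_)
  have habs : (∫ φ in (-d)..d, |φ|) = d ^ 2 := by
    have h1 : IntervalIntegrable (fun φ : ℝ => |φ|) volume (-d) 0 :=
      Continuous.intervalIntegrable (by fun_prop) _ _
    have h2 : IntervalIntegrable (fun φ : ℝ => |φ|) volume 0 d :=
      Continuous.intervalIntegrable (by fun_prop) _ _
    rw [← intervalIntegral.integral_add_adjacent_intervals h1 h2]
    have e2 : (∫ φ in (-d)..0, |φ|) = ∫ φ in (-d)..0, -φ := by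
      apply intervalIntegral.integral_congr
      intro x hx
      rw [uIcc_of_le (by linarith)] at hx
      exact abs_of_nonpos hx.2
    have e3 : (∫ φ in (0 : ℝ)..d, |φ|) = ∫ φ in (0 : ℝ)..d, φ := by
      apply intervalIntegral.integral_congr
      intro x hx
      rw [uIcc_of_le hd] at hx
      exact abs_of_nonneg hx.1
    rw [e2, e3, intervalIntegral.integral_neg, integral_id, integral_id]
    ring
  have i1 : IntervalIntegrable (fun φ : ℝ => b + l * φ + k * |φ|) volume (-d) d :=
    Continuous.intervalIntegrable (by fun_prop) _ _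
  have i2 : IntervalIntegrable (fun φ : ℝ => q * φ ^ 2) volume (-d) d :=
    Continuous.intervalIntegrable (by fun_prop) _ _
  have i3 : IntervalIntegrable (fun φ : ℝ => b + l * φ) volume (-d) d :=
    Continuous.intervalIntegrable (by fun_prop) _ _
  have i4 : IntervalIntegrable (fun φ : ℝ => k * |φ|) volume (-d) d :=
    Continuous.intervalIntegrable (by fun_prop) _ _
  have i5 : IntervalIntegrable (fun _ : ℝ => b) volume (-d) d :=
    Continuous.intervalIntegrable (by fun_prop) _ _
  have i6 : IntervalIntegrable (fun φ : ℝ => l * φ) volume (-d) d :=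
    Continuous.intervalIntegrable (by fun_prop) _ _
  rw [intervalIntegral.integral_add i1 i2, intervalIntegral.integral_add i3 i4,
    intervalIntegral.integral_add i5 i6, intervalIntegral.integral_const_mul,
    intervalIntegral.integral_const_mul, intervalIntegral.integral_const_mul, habs,
    integral_id, integral_pow, intervalIntegral.integral_const]
  simp only [smul_eq_mul]
  norm_num
  ring

/-- arcs on an interval `[a, a + 2 N d]`, centres `a + (2 j + 1) d`. -/
theorem integral_le_arcs {f : ℝ → ℝ} {a d : ℝ} (N : ℕ) (B : ℕ → ℝ)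
    (hf : ∀ x y, IntervalIntegrable f volume x y)
    (h : ∀ j < N, (∫ θ in (a + (2 * j + 1) * d - d)..(a + (2 * j + 1) * d + d), f θ) ≤ B j) :
    (∫ θ in a..(a + 2 * N * d), f θ) ≤ ∑ j ∈ Finset.range N, B j := by
  induction N with
  | zero => simp
  | succ n ih =>
    have h1 := ih fun j hj => h j (hj.trans (Nat.lt_succ_self n))
    rw [Finset.sum_range_succ,
      ← intervalIntegral.integral_add_adjacent_intervals (hf a (a + 2 * n * d))
        (hf (a + 2 * n * d) (a + 2 * ((n + 1 : ℕ) : ℝ) * d))]
    have h2 := h n (Nat.lt_succ_self n)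
    have e1 : a + (2 * (n : ℝ) + 1) * d - d = a + 2 * n * d := by ring
    have e2 : a + (2 * (n : ℝ) + 1) * d + d = a + 2 * ((n + 1 : ℕ) : ℝ) * d := by
      push_cast; ring
    rw [e1, e2] at h2
    linarith

/-- the centre of the arc `j` -/
def ctr (N j : ℕ) : ℝ := (2 * j + 1) * (π / N)

theorem intervalIntegrable_of_circleIntegrable {f : ℂ → ℝ} {r : ℝ} (hf : CircleIntegrable f 0 r)
    (x y : ℝ) : IntervalIntegrable (fun θ => f (circleMap 0 r θ)) volume x y := by
  have hper : Function.Periodic (fun θ => f (circleMap 0 r θ)) (2 * π) := fun θ => by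
    simp only [periodic_circleMap 0 r θ]
  have h0 : IntervalIntegrable (fun θ => f (circleMap 0 r θ)) volume 0 (0 + 2 * π) := by
    rw [zero_add]; exact hf
  exact hper.intervalIntegrable (by positivity) h0 x y

theorem circleAverage_le_arcs {f : ℂ → ℝ} {r : ℝ} (hf : CircleIntegrable f 0 r) {N : ℕ}
    (hN : 0 < N) (b : ℕ → ℝ)
    (h : ∀ j < N, (∫ θ in (ctr N j - π / N)..(ctr N j + π / N), f (circleMap 0 r θ))
      ≤ 2 * (π / N) * b j) :
    circleAverage f 0 r ≤ (∑ j ∈ Finset.range N, b j) / N := by
  have hN' : (0 : ℝ) < N := by exact_mod_cast hN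
  have key := integral_le_arcs (f := fun θ => f (circleMap 0 r θ)) (a := 0) (d := π / N)
    N (fun j => 2 * (π / N) * b j)
    (fun x y => intervalIntegrable_of_circleIntegrable hf x y)
    (fun j hj => by simpa [ctr] using h j hj)
  have e : (0 : ℝ) + 2 * N * (π / N) = 2 * π := by field_simp; ring
  rw [e, ← Finset.mul_sum] at key
  rw [circleAverage, smul_eq_mul]
  have h2 : (2 * π)⁻¹ * (∫ θ in (0 : ℝ)..(2 * π), f (circleMap 0 r θ))
      ≤ (2 * π)⁻¹ * (2 * (π / N) * ∑ j ∈ Finset.range N, b j) :=
    mul_le_mul_of_nonneg_left key (by positivity)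
  refine h2.trans (le_of_eq ?_)
  field_simp

theorem circleAverage_le_quad {f : ℂ → ℝ} {r : ℝ} (hf : CircleIntegrable f 0 r) {N : ℕ}
    (hN : 0 < N) (b l k q : ℕ → ℝ)
    (h : ∀ j < N, ∀ φ : ℝ, |φ| ≤ π / N →
      f (circleMap 0 r (ctr N j + φ)) ≤ b j + l j * φ + k j * |φ| + q j * φ ^ 2) :
    circleAverage f 0 r ≤
      (∑ j ∈ Finset.range N, (b j + k j * (π / N) / 2 + q j * (π / N) ^ 2 / 3)) / N := by
  refine circleAverage_le_arcs hf hN _ fun j hj => ?_
  refine integral_quad (l := l j) (by positivity)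
    (intervalIntegrable_of_circleIntegrable hf _ _) fun φ hφ => h j hj φ (abs_le.2 hφ)

/-- conjugation symmetric: arcs of the upper half circle only, `2 M` arcs in total -/
theorem circleAverage_le_quad_half {f : ℂ → ℝ} {r : ℝ} (hf : CircleIntegrable f 0 r)
    (hsym : ∀ z, f (conj z) = f z) {M : ℕ} (hM : 0 < M) (b l k q : ℕ → ℝ)
    (h : ∀ j < M, ∀ φ : ℝ, |φ| ≤ π / (2 * M : ℕ) →
      f (circleMap 0 r (ctr (2 * M) j + φ)) ≤ b j + l j * φ + k j * |φ| + q j * φ ^ 2) :
    circleAverage f 0 r ≤
      (∑ j ∈ Finset.range M,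
        (b j + k j * (π / (2 * M : ℕ)) / 2 + q j * (π / (2 * M : ℕ)) ^ 2 / 3)) / M := by
  have hM' : (0 : ℝ) < M := by exact_mod_cast hM
  -- reflected data
  let rf : (ℕ → ℝ) → ℕ → ℝ := fun u j => if j < M then u j else u (2 * M - 1 - j)
  have hNpos : 0 < 2 * M := by omega
  have key := circleAverage_le_quad (f := f) (r := r) hf hNpos (rf b)
    (fun j => if j < M then l j else -l (2 * M - 1 - j)) (rf k) (rf q) ?_
  · refine key.trans (le_of_eq ?_)
    have hsum : ∀ u : ℕ → ℝ, (∑ j ∈ Finset.range (2 * M), rf u j)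
        = 2 * ∑ j ∈ Finset.range M, u j := by
      intro u
      rw [two_mul M, Finset.sum_range_add]
      have e1 : ∑ j ∈ Finset.range M, rf u j = ∑ j ∈ Finset.range M, u j := by
        apply Finset.sum_congr rfl
        intro j hj
        simp [rf, Finset.mem_range.1 hj]
      have e2 : ∑ j ∈ Finset.range M, rf u (M + j) = ∑ j ∈ Finset.range M, u j := by
        rw [← Finset.sum_range_reflect]
        apply Finset.sum_congr rfl
        intro j hj
        have hj' := Finset.mem_range.1 hj
        have : ¬ (M + (M - 1 - j) < M) := by omega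
        simp only [rf, this, if_false]
        congr 1
        omega
      rw [e1, e2]; ring
    have e3 : ∀ j, rf b j + rf k j * (π / (2 * M : ℕ)) / 2 + rf q j * (π / (2 * M : ℕ)) ^ 2 / 3
        = rf (fun j => b j + k j * (π / (2 * M : ℕ)) / 2 + q j * (π / (2 * M : ℕ)) ^ 2 / 3) j := by
      intro j
      simp only [rf]
      split_ifs <;> rfl
    rw [Finset.sum_congr rfl fun j _ => e3 j, hsum]
    rw [show (((2 * M : ℕ) : ℝ)) = 2 * (M : ℝ) by push_cast; ring]
    exact mul_div_mul_left _ _ two_ne_zero
  · intro j hj φ hφ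
    by_cases hjM : j < M
    · simpa [rf, hjM] using h j hjM φ hφ
    · have hj2 : 2 * M - 1 - j < M := by omega
      have hφ' : |(-φ)| ≤ π / (2 * M : ℕ) := by rwa [abs_neg]
      have h1 := h _ hj2 (-φ) hφ'
      have hc : conj (circleMap 0 r (ctr (2 * M) j + φ))
          = circleMap 0 r (ctr (2 * M) (2 * M - 1 - j) + -φ) := by
        have hcast : ((2 * M - 1 - j : ℕ) : ℝ) = 2 * M - 1 - j := by
          rw [Nat.cast_sub (by omega), Nat.cast_sub (by omega)]; push_cast; ring
        have e4 : ctr (2 * M) (2 * M - 1 - j) + -φ = -(ctr (2 * M) j + φ) + 2 * π := by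
          simp only [ctr, hcast]
          push_cast
          field_simp
          ring
        rw [e4, periodic_circleMap 0 r]
        simp only [circleMap_zero_eq, map_mul, Complex.conj_ofReal, ← Complex.exp_conj,
          Complex.conj_I]
        congr 2
        push_cast
        ring
      rw [← hsym, hc]
      simp only [rf, hjM, if_false]
      rw [abs_neg] at h1
      linarith [h1, show (-φ) ^ 2 = φ ^ 2 by ring]

end

end Vale.Agent.P030.H822
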