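import Vale.Agent.P030.H822.TM

/-!
P030, row NUM (helper822): fixed point arithmetic with natural numbers only (kernel friendly).

A real number `x` (`|x| < 2^14`) is stored as `X = ⌊x 2^48⌋ + 2^62 : ℕ`; nonnegative bounds as
`⌈x 2^48⌉`.  The value `0` of the offset representation is reserved for underflow.
-/

namespace Vale.Agent.P030.H822

namespace Fx

open Real

/-- value of an offset number -/
noncomputable def val (X : ℕ) : ℝ := ((X : ℝ) - 4611686018427387904) / 281474976710656

/-- value of an unsigned bound -/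
noncomputable def uv (e : ℕ) : ℝ := (e : ℝ) / 281474976710656

noncomputable def cval (X Y : ℕ) : ℂ := ⟨val X, val Y⟩

/-- call by value -/
@[inline] def force {α : Type} (n : ℕ) (f : ℕ → α) : α :=
  Nat.rec (motive := fun _ => α) (f 0) (fun m _ => f (Nat.succ m)) n

@[simp] theorem force_eq {α : Type} (n : ℕ) (f : ℕ → α) : force n f = f n := by
  cases n <;> rfl

theorem uv_nonneg (e : ℕ) : 0 ≤ uv e := by unfold uv; positivity

theorem uv_add (a b : ℕ) : uv (a + b) = uv a + uv b := by unfold uv; push_cast; ring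

theorem uv_mono {a b : ℕ} (h : a ≤ b) : uv a ≤ uv b := by
  unfold uv
  have : (a : ℝ) ≤ b := by exact_mod_cast h
  exact div_le_div_of_nonneg_right this (by norm_num)

/-- round up of `x / 2^48` -/
def shrUp (x : ℕ) : ℕ := Nat.succ (Nat.shiftRight x 48)

theorem shrUp_spec (x : ℕ) : (x : ℝ) / 281474976710656 ≤ (shrUp x : ℕ) := by
  have h : x < (x / 281474976710656 + 1) * 281474976710656 := by
    have := Nat.lt_div_mul_add (a := x) (b := 281474976710656) (by norm_num)
    linarith
  have h' : (x : ℝ) < ((x / 281474976710656 + 1 : ℕ) : ℝ) * 281474976710656 := by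
    exact_mod_cast h
  have e : shrUp x = x / 281474976710656 + 1 := by
    have : Nat.shiftRight x 48 = x / 2 ^ 48 := Nat.shiftRight_eq_div_pow x 48
    simp only [shrUp, this, Nat.succ_eq_add_one]
    norm_num
  rw [e, div_le_iff₀ (by norm_num)]
  exact h'.le

theorem uv_mul_le (a b : ℕ) : uv a * uv b ≤ uv (shrUp (a * b)) := by
  have h := shrUp_spec (a * b)
  unfold uv
  rw [show (a : ℝ) / 281474976710656 * ((b : ℝ) / 281474976710656)
    = ((a : ℝ) * b / 281474976710656) / 281474976710656 by ring]
  push_cast at h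
  exact div_le_div_of_nonneg_right h (by norm_num)

theorem shr_sub_spec {P Q Z : ℕ} (hZ : Nat.shiftRight (Nat.sub P Q) 48 = Z) (h0 : Z ≠ 0) :
    (Z : ℝ) * 281474976710656 ≤ (P : ℝ) - Q ∧
      (P : ℝ) - Q < (Z : ℝ) * 281474976710656 + 281474976710656 := by
  have e : Nat.shiftRight (Nat.sub P Q) 48 = (P - Q) / 2 ^ 48 :=
    Nat.shiftRight_eq_div_pow _ 48
  rw [e] at hZ
  have e2 : (2 : ℕ) ^ 48 = 281474976710656 := by norm_num
  rw [e2] at hZ
  have hQP : Q ≤ P := by
    by_contra hcon
    have : P - Q = 0 := Nat.sub_eq_zero_of_le (le_of_lt (not_le.1 hcon))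
    rw [this] at hZ
    apply h0
    rw [← hZ]
  have h1 : Z * 281474976710656 ≤ P - Q := by
    rw [← hZ]; exact Nat.div_mul_le_self _ _
  have h2 : P - Q < Z * 281474976710656 + 281474976710656 := by
    rw [← hZ]
    exact Nat.lt_div_mul_add (by norm_num)
  have h1' : ((Z * 281474976710656 : ℕ) : ℝ) ≤ ((P - Q : ℕ) : ℝ) := by exact_mod_cast h1
  have h2' : ((P - Q : ℕ) : ℝ) < ((Z * 281474976710656 + 281474976710656 : ℕ) : ℝ) := by
    exact_mod_cast h2
  rw [Nat.cast_sub hQP] at h1' h2'
  push_cast at h1' h2'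
  exact ⟨h1', h2'⟩

/-- real part of a product -/
def reMul (a b c d : ℕ) : ℕ :=
  Nat.shiftRight (Nat.sub
    (Nat.add (Nat.add (Nat.mul a c) (Nat.shiftLeft (Nat.add b d) 62))
      1298074214633706907132624082305024)
    (Nat.add (Nat.mul b d) (Nat.shiftLeft (Nat.add a c) 62))) 48

/-- imaginary part of a product -/
def imMul (a b c d : ℕ) : ℕ :=
  Nat.shiftRight (Nat.sub
    (Nat.add (Nat.add (Nat.mul a d) (Nat.mul b c)) 42536593939331941639828958553053331456)
    (Nat.shiftLeft (Nat.add (Nat.add a b) (Nat.add c d)) 62)) 48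

theorem reMul_spec {a b c d Z : ℕ} (h : reMul a b c d = Z) (h0 : Z ≠ 0) :
    |val a * val c - val b * val d - val Z| ≤ uv 1 := by
  obtain ⟨h1, h2⟩ := shr_sub_spec h h0
  have e1 : Nat.shiftLeft (Nat.add b d) 62 = (b + d) * 4611686018427387904 :=
    (Nat.shiftLeft_eq _ 62).trans (by norm_num)
  have e2 : Nat.shiftLeft (Nat.add a c) 62 = (a + c) * 4611686018427387904 :=
    (Nat.shiftLeft_eq _ 62).trans (by norm_num)
  simp only [Nat.add_eq, Nat.mul_eq] at h1 h2 e1 e2
  rw [e1, e2] at h1 h2
  push_cast at h1 h2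
  have e3 : val a * val c - val b * val d - val Z
      = ((a * c + (b + d) * 4611686018427387904 + 1298074214633706907132624082305024
        - (b * d + (a + c) * 4611686018427387904)) - (Z : ℝ) * 281474976710656)
        / (281474976710656 * 281474976710656) := by
    unfold val; ring
  rw [e3, abs_of_nonneg (div_nonneg (by linarith) (by norm_num))]
  unfold uv
  rw [div_le_div_iff₀ (by norm_num) (by norm_num)]
  push_cast
  linarith

theorem imMul_spec {a b c d Z : ℕ} (h : imMul a b c d = Z) (h0 : Z ≠ 0) :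
    |val a * val d + val b * val c - val Z| ≤ uv 1 := by
  obtain ⟨h1, h2⟩ := shr_sub_spec h h0
  have e2 : Nat.shiftLeft (Nat.add (Nat.add a b) (Nat.add c d)) 62
      = (a + b + (c + d)) * 4611686018427387904 :=
    (Nat.shiftLeft_eq _ 62).trans (by norm_num)
  simp only [Nat.add_eq, Nat.mul_eq] at h1 h2 e2
  rw [e2] at h1 h2
  push_cast at h1 h2
  have e3 : val a * val d + val b * val c - val Z
      = ((a * d + b * c + 42536593939331941639828958553053331456
        - (a + b + (c + d)) * 4611686018427387904) - (Z : ℝ) * 281474976710656)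
        / (281474976710656 * 281474976710656) := by
    unfold val; ring
  rw [e3, abs_of_nonneg (div_nonneg (by linarith) (by norm_num))]
  unfold uv
  rw [div_le_div_iff₀ (by norm_num) (by norm_num)]
  push_cast
  linarith

/-- offset addition -/
def oadd (a b : ℕ) : ℕ := Nat.sub (Nat.add a b) 4611686018427387904

theorem oadd_spec {a b Z : ℕ} (h : oadd a b = Z) (h0 : Z ≠ 0) : val a + val b = val Z := by
  have h' : a + b - 4611686018427387904 = Z := h
  have : a + b = Z + 4611686018427387904 := by omega
  have h2 : (a : ℝ) + b = Z + 4611686018427387904 := by exact_mod_cast this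
  have e : ((a : ℝ) - 4611686018427387904) + (b - 4611686018427387904)
      = (Z : ℝ) - 4611686018427387904 := by linarith
  unfold val
  rw [← add_div, e]

/-- offset subtraction -/
def osub (a b : ℕ) : ℕ := Nat.sub (Nat.add a 4611686018427387904) b

theorem osub_spec {a b Z : ℕ} (h : osub a b = Z) (h0 : Z ≠ 0) : val a - val b = val Z := by
  have h' : a + 4611686018427387904 - b = Z := h
  have : a + 4611686018427387904 = Z + b := by omega
  have h2 : (a : ℝ) + 4611686018427387904 = Z + b := by exact_mod_cast this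
  have e : ((a : ℝ) - 4611686018427387904) - (b - 4611686018427387904)
      = (Z : ℝ) - 4611686018427387904 := by linarith
  unfold val
  rw [← sub_div, e]

/-- upper bound of the modulus -/
def nrm (X Y : ℕ) : ℕ :=
  force (Nat.add (Nat.sub X 4611686018427387904) (Nat.sub 4611686018427387904 X)) fun a =>
  force (Nat.add (Nat.sub Y 4611686018427387904) (Nat.sub 4611686018427387904 Y)) fun b =>
  bif Nat.ble a b then Nat.succ (Nat.add b (Nat.shiftRight (Nat.mul 27 a) 6))
  else Nat.succ (Nat.add a (Nat.shiftRight (Nat.mul 27 b) 6))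

theorem abs_val (X : ℕ) : |val X| =
    uv (Nat.add (Nat.sub X 4611686018427387904) (Nat.sub 4611686018427387904 X)) := by
  unfold val uv
  simp only [Nat.add_eq, Nat.sub_eq]
  rw [abs_div, abs_of_pos (show (0 : ℝ) < 281474976710656 by norm_num)]
  congr 1
  rcases le_total X 4611686018427387904 with h | h
  · rw [Nat.sub_eq_zero_of_le h, zero_add, Nat.cast_sub h, abs_of_nonpos]
    · push_cast; ring
    · have : (X : ℝ) ≤ 4611686018427387904 := by exact_mod_cast h
      linarith
  · rw [Nat.sub_eq_zero_of_le h, add_zero, Nat.cast_sub h, abs_of_nonneg]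
    · push_cast; ring
    · have : (4611686018427387904 : ℝ) ≤ X := by exact_mod_cast h
      linarith

theorem norm_le_of_max_min {z : ℂ} {a b : ℝ} (ha : |z.re| ≤ a) (hb : |z.im| ≤ b) (hba : b ≤ a) :
    ‖z‖ ≤ a + 27 / 64 * b := by
  have hb0 : 0 ≤ b := (abs_nonneg _).trans hb
  have ha0 : 0 ≤ a := (abs_nonneg _).trans ha
  have h1 : ‖z‖ ^ 2 ≤ (a + 27 / 64 * b) ^ 2 := by
    rw [← Complex.normSq_eq_norm_sq, Complex.normSq_apply]
    have h2 : z.re * z.re ≤ a ^ 2 := by
      have := sq_le_sq' (by linarith [neg_abs_le z.re]) ((le_abs_self _).trans ha)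
      nlinarith
    have h3 : z.im * z.im ≤ b ^ 2 := by
      have := sq_le_sq' (by linarith [neg_abs_le z.im]) ((le_abs_self _).trans hb)
      nlinarith
    nlinarith [mul_le_mul_of_nonneg_right hba hb0]
  exact (abs_le_of_sq_le_sq' h1 (by positivity)).2

theorem nrm_spec (X Y : ℕ) : ‖cval X Y‖ ≤ uv (nrm X Y) := by
  unfold nrm
  simp only [force_eq]
  have hX := (abs_val X).le
  have hY := (abs_val Y).le
  set a := Nat.add (Nat.sub X 4611686018427387904) (Nat.sub 4611686018427387904 X)
  set b := Nat.add (Nat.sub Y 4611686018427387904) (Nat.sub 4611686018427387904 Y)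
  have key : ∀ p q : ℕ, uv p + 27 / 64 * uv q ≤
      uv (Nat.succ (Nat.add p (Nat.shiftRight (Nat.mul 27 q) 6))) := by
    intro p q
    have e : Nat.shiftRight (Nat.mul 27 q) 6 = (27 * q) / 64 :=
      (Nat.shiftRight_eq_div_pow _ 6).trans (by norm_num)
    rw [e]
    have h : 27 * q < ((27 * q) / 64 + 1) * 64 := by
      have := Nat.lt_div_mul_add (a := 27 * q) (b := 64) (by norm_num)
      linarith
    have h' : (27 : ℝ) * q < (((27 * q) / 64 : ℕ) + 1) * 64 := by exact_mod_cast h
    unfold uv
    simp only [Nat.succ_eq_add_one, Nat.add_eq]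
    rw [Nat.cast_add, Nat.cast_add, Nat.cast_one]
    rw [← mul_div_assoc, ← add_div]
    refine div_le_div_of_nonneg_right ?_ (by norm_num)
    linarith
  cases hc : Nat.ble a b with
  | true =>
    have hab : a ≤ b := Nat.le_of_ble_eq_true hc
    simp only [cond_true]
    have h1 : ‖cval Y X‖ ≤ uv b + 27 / 64 * uv a :=
      norm_le_of_max_min (z := cval Y X) hY hX (uv_mono hab)
    have h2 : ‖cval X Y‖ = ‖cval Y X‖ := by
      rw [Complex.norm_def, Complex.norm_def, Complex.normSq_apply, Complex.normSq_apply]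
      simp only [cval]
      rw [add_comm]
    rw [h2]
    exact h1.trans (key b a)
  | false =>
    have hab : b ≤ a := by
      by_contra hcon
      have := Nat.ble_eq_true_of_le (le_of_lt (not_le.1 hcon))
      rw [this] at hc
      exact Bool.noConfusion hc
    simp only [cond_false]
    exact (norm_le_of_max_min (z := cval X Y) hX hY (uv_mono hab)).trans (key a b)

/-- complex product, rounding error at most `2` units -/
theorem cmul_spec {a b c d X Y : ℕ} (hX : reMul a b c d = X) (hY : imMul a b c d = Y)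
    (hX0 : X ≠ 0) (hY0 : Y ≠ 0) : ‖cval a b * cval c d - cval X Y‖ ≤ uv 2 := by
  have h1 := reMul_spec hX hX0
  have h2 := imMul_spec hY hY0
  refine (Complex.norm_le_abs_re_add_abs_im _).trans ?_
  simp only [cval, Complex.sub_re, Complex.mul_re, Complex.sub_im, Complex.mul_im]
  have : uv 2 = uv 1 + uv 1 := by rw [← uv_add]
  rw [this]
  exact add_le_add h1 h2

end Fx

end Vale.Agent.P030.H822
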