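import Vale.Agent.P030.H822.FxI

/-!
P030, row NUM (helper822): kernel evaluator of the complex exponential (`|w| ≤ 16`) and of
`exp` of an arc model.
-/

namespace Vale.Agent.P030.H822

namespace Fx

open Real

/-- `1 + u/(i+1) (1 + u/(i+2) (1 + ..))`, `n` factors -/
noncomputable def hf (u : ℂ) : ℕ → ℕ → ℂ
  | 0, _ => 1
  | n + 1, i => 1 + u / (i + 1) * hf u n (i + 1)

theorem hf_eq (u : ℂ) (n : ℕ) : ∀ i : ℕ, u ^ i / (i.factorial : ℂ) * hf u n i
    = ∑ m ∈ Finset.range (n + 1), u ^ (i + m) / ((i + m).factorial : ℂ) := by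
  induction n with
  | zero => intro i; simp [hf]
  | succ n ih =>
    intro i
    rw [Finset.sum_range_succ']
    have h := ih (i + 1)
    have e0 : hf u (n + 1) i = 1 + u / (i + 1) * hf u n (i + 1) := rfl
    have e1 : ∀ m : ℕ, u ^ (i + (m + 1)) / ((i + (m + 1)).factorial : ℂ)
        = u ^ ((i + 1) + m) / (((i + 1) + m).factorial : ℂ) := fun m => by
      rw [show i + (m + 1) = (i + 1) + m by ring]
    rw [e0, add_zero, Finset.sum_congr rfl fun m _ => e1 m, ← h, Nat.factorial_succ]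
    have h1 : ((i : ℂ) + 1) ≠ 0 := Nat.cast_add_one_ne_zero i
    have h2 : (i.factorial : ℂ) ≠ 0 := Nat.cast_ne_zero.2 (Nat.factorial_ne_zero i)
    push_cast
    field_simp
    ring

theorem hf_zero_eq (u : ℂ) (n : ℕ) : hf u n 0
    = ∑ m ∈ Finset.range (n + 1), u ^ m / (m.factorial : ℂ) := by
  have := hf_eq u n 0
  simpa using this

theorem exp_sub_hf_le {u : ℂ} (hu : ‖u‖ ≤ 1 / 2) : ‖Complex.exp u - hf u 13 0‖ ≤ uv 1 := by
  rw [hf_zero_eq]
  have h := Complex.exp_bound (x := u) (by linarith) (n := 14) (by norm_num)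
  refine h.trans ?_
  have h2 : ‖u‖ ^ 14 ≤ (1 / 2) ^ 14 := pow_le_pow_left₀ (norm_nonneg _) hu 14
  have h3 : ((Nat.succ 14 : ℕ) : ℝ) * (((Nat.factorial 14 : ℕ) : ℝ) * (14 : ℕ))⁻¹
      ≤ 15 / (87178291200 * 14) := by
    norm_num [Nat.factorial]
  calc ‖u‖ ^ 14 * (((Nat.succ 14 : ℕ) : ℝ) * (((Nat.factorial 14 : ℕ) : ℝ) * (14 : ℕ))⁻¹)
      ≤ (1 / 2) ^ 14 * (15 / (87178291200 * 14)) := by
        apply mul_le_mul h2 h3 (by positivity) (by positivity)
    _ ≤ uv 1 := by unfold uv; norm_num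

/-- Horner evaluation of `hf` -/
def horn (ux uy : ℕ) : ℕ → ℕ → (ℕ → ℕ → Bool) → Bool
  | 0, _, k => k 4611967493404098560 4611686018427387904
  | n + 1, i, k => horn ux uy n (Nat.succ i) fun X Y =>
    fz (reMul ux uy X Y) fun P => fz (imMul ux uy X Y) fun Q =>
    force (Nat.add (Nat.div (Nat.add P (Nat.mul i 4611686018427387904)) (Nat.succ i))
      281474976710656) fun X' =>
    force (Nat.div (Nat.add Q (Nat.mul i 4611686018427387904)) (Nat.succ i)) fun Y' => k X' Y'

theorem div_offset (P i : ℕ) :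
    |val P / (i + 1) - val (Nat.div (Nat.add P (Nat.mul i 4611686018427387904)) (Nat.succ i))|
      ≤ uv 1 := by
  have e : Nat.div (Nat.add P (Nat.mul i 4611686018427387904)) (Nat.succ i)
      = (P + i * 4611686018427387904) / (i + 1) := rfl
  rw [e]
  set Z := (P + i * 4611686018427387904) / (i + 1) with hZ
  have h1 : Z * (i + 1) ≤ P + i * 4611686018427387904 := Nat.div_mul_le_self _ _
  have h2 : P + i * 4611686018427387904 < Z * (i + 1) + (i + 1) :=
    Nat.lt_div_mul_add (Nat.succ_pos i)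
  have h1' : (Z : ℝ) * (i + 1) ≤ P + i * 4611686018427387904 := by exact_mod_cast h1
  have h2' : (P : ℝ) + i * 4611686018427387904 < Z * (i + 1) + (i + 1) := by exact_mod_cast h2
  have hi : (0 : ℝ) < i + 1 := by positivity
  have e2 : val P / (i + 1) - val Z
      = (((P : ℝ) + i * 4611686018427387904 - Z * (i + 1)) / (i + 1)) / 281474976710656 := by
    unfold val; field_simp; ring
  rw [e2, abs_of_nonneg (by
    apply div_nonneg (div_nonneg (by linarith) hi.le) (by norm_num))]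
  unfold uv
  refine div_le_div_of_nonneg_right ?_ (by norm_num)
  rw [div_le_iff₀ hi]
  push_cast
  linarith

theorem uv_half_eight : (1 / 2 : ℝ) * uv 8 = uv 4 := by unfold uv; norm_num

theorem horn_sound {ux uy : ℕ} (hu : ‖cval ux uy‖ ≤ 1 / 2) (n : ℕ) : ∀ (i : ℕ)
    (k : ℕ → ℕ → Bool), horn ux uy n i k = true →
    ∃ X Y, ‖cval X Y - hf (cval ux uy) n i‖ ≤ uv 8 ∧ k X Y = true := by
  induction n with
  | zero =>
    intro i k h
    refine ⟨_, _, ?_, h⟩
    rw [cval_one]
    simp only [hf, sub_self, norm_zero]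
    exact uv_nonneg _
  | succ n ih =>
    intro i k h
    unfold horn at h
    obtain ⟨X, Y, hXY, h⟩ := ih (Nat.succ i) _ h
    obtain ⟨h1, h⟩ := fz_true h
    obtain ⟨h2, h⟩ := fz_true h
    simp only [force_eq] at h
    refine ⟨_, _, ?_, h⟩
    set P := reMul ux uy X Y
    set Q := imMul ux uy X Y
    have i1 : ‖cval ux uy * cval X Y - cval P Q‖ ≤ uv 2 := cmul_spec rfl rfl h1 h2
    have i2 := div_offset P i
    have i3 := div_offset Q i
    set X' := Nat.div (Nat.add P (Nat.mul i 4611686018427387904)) (Nat.succ i)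
    set Y' := Nat.div (Nat.add Q (Nat.mul i 4611686018427387904)) (Nat.succ i)
    have hi : (0 : ℝ) < i + 1 := by positivity
    have i4 : ‖cval (Nat.add X' 281474976710656) Y' - (1 + cval P Q / (i + 1))‖ ≤ uv 2 := by
      refine (Complex.norm_le_abs_re_add_abs_im _).trans ?_
      have e : uv 2 = uv 1 + uv 1 := by rw [← uv_add]
      rw [e]
      have hc : ((i : ℂ) + 1) = (((i : ℝ) + 1 : ℝ) : ℂ) := by push_cast; rfl
      refine add_le_add ?_ ?_
      · simp only [cval, Complex.sub_re, Complex.add_re, Complex.one_re]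
        rw [hc, Complex.div_ofReal_re]
        have e3 : val (Nat.add X' 281474976710656) = val X' + 1 := by
          unfold val
          simp only [Nat.add_eq]
          push_cast
          field_simp
          ring
        rw [e3]
        have e4 : val X' + 1 - (1 + val P / ((i : ℝ) + 1)) = -(val P / ((i : ℝ) + 1) - val X') := by
          ring
        rw [e4, abs_neg]
        exact i2
      · simp only [cval, Complex.sub_im, Complex.add_im, Complex.one_im]
        rw [hc, Complex.div_ofReal_im]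
        have e4 : val Y' - (0 + val Q / ((i : ℝ) + 1)) = -(val Q / ((i : ℝ) + 1) - val Y') := by
          ring
        rw [e4, abs_neg]
        exact i3
    set u := cval ux uy
    set H := hf u n (Nat.succ i)
    have i5 : ‖cval P Q / (i + 1) - u / (i + 1) * H‖ ≤ uv 6 := by
      have e1 : cval P Q / ((i : ℂ) + 1) - u / (i + 1) * H = (cval P Q - u * H) / (i + 1) := by
        ring
      have e2 : ‖(i : ℂ) + 1‖ = i + 1 := by
        have : (i : ℂ) + 1 = ((i + 1 : ℕ) : ℂ) := by push_cast; rfl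
        rw [this, Complex.norm_natCast]; push_cast; rfl
      rw [e1, norm_div, e2]
      have i6 : ‖cval P Q - u * H‖ ≤ uv 6 := by
        have e3 : cval P Q - u * H = -(u * cval X Y - cval P Q) + u * (cval X Y - H) := by ring
        rw [e3]
        refine (norm_add_le _ _).trans ?_
        rw [norm_neg, norm_mul]
        have : ‖u‖ * ‖cval X Y - H‖ ≤ 1 / 2 * uv 8 :=
          mul_le_mul hu hXY (norm_nonneg _) (by norm_num)
        rw [uv_half_eight] at this
        have e6 : uv 6 = uv 2 + uv 4 := by rw [← uv_add]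
        rw [e6]
        linarith
      refine le_trans (div_le_self (norm_nonneg _) ?_) i6
      have : (0 : ℝ) ≤ i := Nat.cast_nonneg i
      linarith
    have e7 : cval (Nat.add X' 281474976710656) Y' - hf u (n + 1) i
        = (cval (Nat.add X' 281474976710656) Y' - (1 + cval P Q / (i + 1)))
          + (cval P Q / (i + 1) - u / (i + 1) * H) := by
      simp only [hf]
      change _ - (1 + u / (i + 1) * H) = _
      ring
    rw [e7]
    have e8 : uv 8 = uv 2 + uv 6 := by rw [← uv_add]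
    rw [e8]
    exact (norm_add_le _ _).trans (add_le_add i4 i5)

/-- repeated squaring with error -/
def sqs : ℕ → ℕ → ℕ → ℕ → (ℕ → ℕ → ℕ → Bool) → Bool
  | 0, X, Y, E, k => k X Y E
  | n + 1, X, Y, E, k =>
    fz (reMul X Y X Y) fun X' => fz (imMul X Y X Y) fun Y' =>
    force (Nat.add (shrUp (Nat.mul (Nat.add (Nat.mul 2 (nrm X Y)) E) E)) 2) fun E' =>
    sqs n X' Y' E' k

theorem sqs_sound (n : ℕ) : ∀ (X Y E : ℕ) (k : ℕ → ℕ → ℕ → Bool), sqs n X Y E k = true →
    ∀ v : ℂ, ‖v - cval X Y‖ ≤ uv E →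
    ∃ X' Y' E', ‖v ^ (2 ^ n) - cval X' Y'‖ ≤ uv E' ∧ k X' Y' E' = true := by
  induction n with
  | zero => intro X Y E k h v hv; exact ⟨X, Y, E, by simpa using hv, h⟩
  | succ n ih =>
    intro X Y E k h v hv
    unfold sqs at h
    obtain ⟨h1, h⟩ := fz_true h
    obtain ⟨h2, h⟩ := fz_true h
    simp only [force_eq] at h
    obtain ⟨X', Y', E', hh, hk⟩ := ih _ _ _ k h (v * v) (by
      have i1 := cmul_spec (a := X) (b := Y) (c := X) (d := Y) rfl rfl h1 h2
      have i2 := nrm_spec X Y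
      have i3 := uv_mul_le (Nat.add (Nat.mul 2 (nrm X Y)) E) E
      have i4 : uv (Nat.add (Nat.mul 2 (nrm X Y)) E) = 2 * uv (nrm X Y) + uv E := by
        have : uv (Nat.mul 2 (nrm X Y)) = 2 * uv (nrm X Y) := by
          unfold uv; simp only [Nat.mul_eq]; push_cast; ring
        rw [← this]; exact uv_add _ _
      rw [i4] at i3
      have i5 : ‖v * v - cval X Y * cval X Y‖ ≤ (2 * uv (nrm X Y) + uv E) * uv E := by
        have e : v * v - cval X Y * cval X Y = (2 * cval X Y + (v - cval X Y)) * (v - cval X Y) := by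
          ring
        rw [e, norm_mul]
        refine mul_le_mul ((norm_add_le _ _).trans (add_le_add ?_ hv)) hv (norm_nonneg _)
          (by have := uv_nonneg (nrm X Y); have := uv_nonneg E; positivity)
        rw [norm_mul]
        simpa using i2
      have i6 : uv (Nat.add (shrUp (Nat.mul (Nat.add (Nat.mul 2 (nrm X Y)) E) E)) 2)
          = uv (shrUp (Nat.mul (Nat.add (Nat.mul 2 (nrm X Y)) E) E)) + uv 2 := uv_add _ _
      rw [i6]
      have e7 : ∀ a b c : ℂ, a - c = (a - b) + (b - c) := by intro a b c; ring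
      rw [e7 _ (cval X Y * cval X Y)]
      exact (norm_add_le _ _).trans (add_le_add (i5.trans i3) i1))
    refine ⟨X', Y', E', ?_, hk⟩
    rw [pow_succ, mul_comm, pow_mul, sq]
    exact hh

/-- `exp (32 u)` for `|u| ≤ 1/2` -/
def cexpU (ux uy : ℕ) (k : ℕ → ℕ → ℕ → Bool) : Bool :=
  bif Nat.ble (nrm ux uy) 140737488355328 then
    horn ux uy 13 0 fun X Y => sqs 5 X Y 9 k
  else false

theorem bif_true {b c : Bool} (h : (bif b then c else false) = true) : b = true ∧ c = true := by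
  cases b <;> simp_all

theorem half_of_ble {a b : ℕ} (h : Nat.ble (nrm a b) 140737488355328 = true) :
    ‖cval a b‖ ≤ 1 / 2 := by
  have h1 := uv_mono (Nat.le_of_ble_eq_true h)
  have h2 : uv 140737488355328 = 1 / 2 := by unfold uv; norm_num
  rw [h2] at h1
  exact (nrm_spec a b).trans h1

theorem exp_pow32 (u : ℂ) : Complex.exp u ^ (2 ^ 5) = Complex.exp (32 * u) := by
  rw [← Complex.exp_nat_mul]
  norm_num

theorem exp9 {u v : ℂ} (hu : ‖u‖ ≤ 1 / 2) (h : ‖v - hf u 13 0‖ ≤ uv 8) :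
    ‖Complex.exp u - v‖ ≤ uv 9 := by
  have e : ∀ a b c : ℂ, a - c = (a - b) + -(c - b) := by intro a b c; ring
  rw [e _ (hf u 13 0)]
  have e9 : uv 9 = uv 1 + uv 8 := by rw [← uv_add]
  rw [e9]
  refine (norm_add_le _ _).trans (add_le_add (exp_sub_hf_le hu) ?_)
  rw [norm_neg]; exact h

theorem cexpU_sound {ux uy : ℕ} {k : ℕ → ℕ → ℕ → Bool} (h : cexpU ux uy k = true) :
    ∃ X Y E, ‖Complex.exp (32 * cval ux uy) - cval X Y‖ ≤ uv E ∧ k X Y E = true := by
  obtain ⟨hb, h⟩ := bif_true h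
  have hu := half_of_ble hb
  obtain ⟨X, Y, h1, h⟩ := horn_sound hu 13 0 _ h
  obtain ⟨X', Y', E', h3, h⟩ := sqs_sound 5 _ _ _ _ h _ (exp9 hu h1)
  rw [exp_pow32] at h3
  exact ⟨X', Y', E', h3, h⟩

/-- `x / 32` in offset form -/
def shr5 (x : ℕ) : ℕ := Nat.shiftRight (Nat.add x 142962266571249025024) 5

theorem shr5_spec (x : ℕ) : |val x - 32 * val (shr5 x)| ≤ uv 31 := by
  have e : shr5 x = (x + 142962266571249025024) / 32 :=
    (Nat.shiftRight_eq_div_pow _ 5).trans (by norm_num)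
  rw [e]
  set Z := (x + 142962266571249025024) / 32 with hZ
  have h1 : Z * 32 ≤ x + 142962266571249025024 := Nat.div_mul_le_self _ _
  have h2 : x + 142962266571249025024 < Z * 32 + 32 := Nat.lt_div_mul_add (by norm_num)
  have h2b : x + 142962266571249025024 ≤ Z * 32 + 31 := by omega
  have h1' : (Z : ℝ) * 32 ≤ x + 142962266571249025024 := by exact_mod_cast h1
  have h2' : (x : ℝ) + 142962266571249025024 ≤ Z * 32 + 31 := by exact_mod_cast h2b
  have e2 : val x - 32 * val Z = ((x : ℝ) + 142962266571249025024 - Z * 32) / 281474976710656 := by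
    unfold val; ring
  rw [e2, abs_of_nonneg (div_nonneg (by linarith) (by norm_num))]
  unfold uv
  refine div_le_div_of_nonneg_right ?_ (by norm_num)
  push_cast
  linarith

/-- complex exponential -/
def cexp (x y : ℕ) (k : ℕ → ℕ → ℕ → Bool) : Bool :=
  force (shr5 x) fun ux => force (shr5 y) fun uy =>
  cexpU ux uy fun X Y E =>
    force (Nat.add E (shrUp (Nat.mul (Nat.add (nrm X Y) E) 124))) fun E' => k X Y E'

theorem exp_diff {w v T : ℂ} {X Y E : ℕ} (hρ : ‖w - v‖ ≤ uv 62) (hT : T = Complex.exp v)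
    (h3 : ‖T - cval X Y‖ ≤ uv E) :
    ‖Complex.exp w - cval X Y‖ ≤ uv (Nat.add E (shrUp (Nat.mul (Nat.add (nrm X Y) E) 124))) := by
  have hρ1 : ‖Complex.exp (w - v) - 1‖ ≤ uv 124 := by
    have h1 : uv 62 ≤ 1 := by unfold uv; norm_num
    refine (Complex.norm_exp_sub_one_le (hρ.trans h1)).trans ?_
    have : uv 124 = 2 * uv 62 := by unfold uv; norm_num
    rw [this]
    linarith
  have e10 : Complex.exp w - cval X Y
      = (T - cval X Y) + T * (Complex.exp (w - v) - 1) := by
    have : Complex.exp w = T * Complex.exp (w - v) := by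
      rw [hT, ← Complex.exp_add, add_sub_cancel]
    rw [this]; ring
  rw [e10]
  have hTn : ‖T‖ ≤ uv (Nat.add (nrm X Y) E) := by
    have e11 : T = cval X Y + (T - cval X Y) := by ring
    have e12 : uv (Nat.add (nrm X Y) E) = uv (nrm X Y) + uv E := uv_add _ _
    rw [e12]
    calc ‖T‖ = ‖cval X Y + (T - cval X Y)‖ := by rw [← e11]
      _ ≤ _ := (norm_add_le _ _).trans (add_le_add (nrm_spec _ _) h3)
  have e13 : uv (Nat.add E (shrUp (Nat.mul (Nat.add (nrm X Y) E) 124)))
      = uv E + uv (shrUp (Nat.mul (Nat.add (nrm X Y) E) 124)) := uv_add _ _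
  rw [e13]
  refine (norm_add_le _ _).trans (add_le_add h3 ?_)
  rw [norm_mul]
  exact (mul_le_mul hTn hρ1 (norm_nonneg _) (uv_nonneg _)).trans (uv_mul_le _ _)

theorem shr5_norm (x y : ℕ) : ‖cval x y - 32 * cval (shr5 x) (shr5 y)‖ ≤ uv 62 := by
  have hx := shr5_spec x
  have hy := shr5_spec y
  refine (Complex.norm_le_abs_re_add_abs_im _).trans ?_
  have e : uv 62 = uv 31 + uv 31 := by rw [← uv_add]
  rw [e]
  have e1 : (cval x y - 32 * cval (shr5 x) (shr5 y)).re = val x - 32 * val (shr5 x) := by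
    simp [cval]
  have e2 : (cval x y - 32 * cval (shr5 x) (shr5 y)).im = val y - 32 * val (shr5 y) := by
    simp [cval]
  rw [e1, e2]
  exact add_le_add hx hy

theorem cexp_sound {x y : ℕ} {k : ℕ → ℕ → ℕ → Bool} (h : cexp x y k = true) :
    ∃ X Y E, ‖Complex.exp (cval x y) - cval X Y‖ ≤ uv E ∧ k X Y E = true := by
  unfold cexp at h
  rw [force_eq, force_eq] at h
  obtain ⟨X, Y, E, h1, h2⟩ := cexpU_sound h
  rw [force_eq] at h2
  exact ⟨X, Y, _, exp_diff (shr5_norm x y) rfl h1, h2⟩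

theorem one_uv : uv 281474976710656 = 1 := by unfold uv; norm_num

theorem kap1 (a : ℕ) : uv (Nat.add 281474976710656 a) = 1 + uv a := by
  have := uv_add 281474976710656 a
  rw [one_uv] at this
  exact this

/-- `1 / (1 - x)` rounded up -/
def recip (XX : ℕ) : ℕ :=
  Nat.succ (Nat.div 79228162514264337593543950336 (Nat.sub 281474976710656 XX))

theorem recip_spec {XX : ℕ} (h : XX ≤ 140737488355328) : 1 ≤ uv (recip XX) * (1 - uv XX) := by
  have := kappa_spec (B := 281474976710656) h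
  have e2 : Nat.shiftLeft 281474976710656 48 = 79228162514264337593543950336 :=
    (Nat.shiftLeft_eq _ 48).trans (by norm_num)
  rw [one_uv, e2] at this
  exact this

theorem uv_lt_one {XX : ℕ} (h : XX ≤ 140737488355328) : uv XX < 1 := by
  have := uv_mono h
  have h2 : uv 140737488355328 < 1 := by unfold uv; norm_num
  linarith

/-- exponential of a model -/
def expR (dl dq : ℕ) (r : R) (k : R → Bool) : Bool :=
  cexp r.wx r.wy fun X Y EW =>
  fz (reMul X Y r.dx r.dy) fun U => fz (imMul X Y r.dx r.dy) fun V =>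
  force (Nat.add (shrUp (Nat.mul r.nd dl)) (errSup dq r.e r.M)) fun XX =>
  bif Nat.ble XX 140737488355328 then
    force (recip XX) fun E =>
    force (Nat.add 281474976710656 (shrUp (Nat.mul XX E))) fun κ =>
    force (nrm X Y) fun nW =>
    force (shrUp (Nat.mul κ r.e)) fun ke => force (shrUp (Nat.mul κ r.M)) fun kM =>
    force (shrUp (Nat.mul (shrUp (Nat.mul r.nd r.nd)) E)) fun dE =>
    mkR X Y U V (Nat.add (shrUp (Nat.add (Nat.mul EW E) (Nat.mul nW ke))) 1)
      (shrUp (Nat.mul nW (Nat.add kM dE))) k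
  else false

theorem expCore {dl dq : ℕ} {r : R} {δ : ℝ} (hδ : DOk δ dl dq) {G : ℝ → ℂ} (hr : r.Ok δ G)
    {X Y EW U V XX E κ nW : ℕ} (hW : ‖Complex.exp (cval r.wx r.wy) - cval X Y‖ ≤ uv EW)
    (hUV : ‖cval X Y * cval r.dx r.dy - cval U V‖ ≤ uv 2)
    (hXX : uv XX = uv (shrUp (r.nd * dl)) + uv (errSup dq r.e r.M))
    (hE : 1 ≤ uv E * (1 - uv XX)) (hX1 : uv XX < 1) (hκ : uv κ = 1 + uv (shrUp (XX * E)))
    (hnW : ‖cval X Y‖ ≤ uv nW) :
    TM δ (fun φ => Complex.exp (G φ)) (cval X Y) (cval U V)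
      (uv (shrUp (EW * E + nW * shrUp (κ * r.e)) + 1))
      (uv (shrUp (nW * (shrUp (κ * r.M) + shrUp (shrUp (r.nd * r.nd) * E))))) := by
  have hρ := errSup_spec hδ r.e r.M
  have hndδ : uv r.nd * δ ≤ uv (shrUp (r.nd * dl)) :=
    (mul_le_mul_of_nonneg_left hδ.le (uv_nonneg _)).trans (uv_mul_le _ _)
  have hκ1 : 1 + (2 * δ * uv r.nd + (uv r.e + uv r.M * δ ^ 2 / 2)) * uv E / 2 ≤ uv κ := by
    rw [hκ]
    have h3 := uv_mul_le XX E
    have h4 : (2 * δ * uv r.nd + (uv r.e + uv r.M * δ ^ 2 / 2)) * uv E / 2 ≤ uv XX * uv E := by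
      have h5 : (2 * δ * uv r.nd + (uv r.e + uv r.M * δ ^ 2 / 2)) / 2 ≤ uv XX := by
        rw [hXX]
        have : 0 ≤ uv r.e + uv r.M * δ ^ 2 / 2 := by
          have := uv_nonneg r.e; have := uv_nonneg r.M; positivity
        linarith
      have := mul_le_mul_of_nonneg_right h5 (uv_nonneg E)
      linarith
    linarith
  have key := hr.tm.exp hδ.nonneg hW hnW hr.hd
    (X := uv XX) (E := uv E) (k := uv κ) (by rw [hXX]; linarith) hE hX1 hκ1
  refine key.mono hδ.nonneg (ew := 0) (ed := uv 2) (by simp) hUV ?_ ?_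
  · rw [uv_add]
    have i2 := uv_shrUp_add EW E nW (shrUp (κ * r.e))
    have i3 : uv κ * uv r.e ≤ uv (shrUp (κ * r.e)) := uv_mul_le κ r.e
    have i4 : uv nW * (uv κ * uv r.e) ≤ uv nW * uv (shrUp (κ * r.e)) :=
      mul_le_mul_of_nonneg_left i3 (uv_nonneg _)
    have i5 : δ * uv 2 ≤ uv 1 := by
      have := hδ.small
      unfold uv
      push_cast
      linarith
    linarith
  · refine le_trans ?_ (uv_mul_le _ _)
    rw [uv_add]
    refine mul_le_mul_of_nonneg_left (add_le_add (uv_mul_le κ r.M) ?_) (uv_nonneg _)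
    have i3 : uv r.nd ^ 2 ≤ uv (shrUp (r.nd * r.nd)) := by
      rw [sq]; exact uv_mul_le _ _
    exact (mul_le_mul_of_nonneg_right i3 (uv_nonneg E)).trans (uv_mul_le _ _)

theorem expR_sound {dl dq : ℕ} {r : R} {k : R → Bool} (h : expR dl dq r k = true) {δ : ℝ}
    (hδ : DOk δ dl dq) {G : ℝ → ℂ} (hr : r.Ok δ G) :
    ∃ t : R, t.Ok δ (fun φ => Complex.exp (G φ)) ∧ k t = true := by
  unfold expR at h
  obtain ⟨X, Y, EW, hW, h⟩ := cexp_sound h
  obtain ⟨h1, h⟩ := fz_true h
  obtain ⟨h2, h⟩ := fz_true h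
  rw [force_eq] at h
  obtain ⟨hb, h⟩ := bif_true h
  rw [force_eq, force_eq, force_eq, force_eq, force_eq, force_eq] at h
  refine mkR_sound h ?_
  exact expCore hδ hr hW (cmul_spec rfl rfl h1 h2) (uv_add _ _)
    (recip_spec (Nat.le_of_ble_eq_true hb)) (uv_lt_one (Nat.le_of_ble_eq_true hb)) (kap1 _)
    (nrm_spec X Y)

end Fx

end Vale.Agent.P030.H822
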