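import Vale.Agent.P030.H822.FxR

/-!
P030, row NUM (helper822): kernel evaluator of arc models: inverse and exponential.
-/

namespace Vale.Agent.P030.H822

namespace Fx

open Real

theorem cval_one : cval 4611967493404098560 4611686018427387904 = 1 := by
  apply Complex.ext
  · simp only [cval, Complex.one_re]; unfold val; norm_num
  · simp only [cval, Complex.one_im]; exact val_O

/-- verification of the candidate `(X, Y) + φ (U, V)` for the inverse -/
def invChk (dl dq : ℕ) (r : R) (X Y U V : ℕ) (k : R → Bool) : Bool :=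
  fz (reMul r.wx r.wy X Y) fun P1 => fz (imMul r.wx r.wy X Y) fun Q1 =>
  fz (osub P1 4611967493404098560) fun P2 =>
  fz (reMul r.wx r.wy U V) fun U1 => fz (imMul r.wx r.wy U V) fun V1 =>
  fz (reMul X Y r.dx r.dy) fun U2 => fz (imMul X Y r.dx r.dy) fun V2 =>
  fz (oadd U1 U2) fun U3 => fz (oadd V1 V2) fun V3 =>
  force (nrm X Y) fun nX => force (nrm U V) fun nU =>
  force (linSup dl nX nU) fun B =>
  force (Nat.add (Nat.add (shrUp (Nat.mul B r.e)) (Nat.add 2 (nrm P2 Q1)))
    (shrUp (Nat.mul dl (Nat.add 4 (nrm U3 V3))))) fun er =>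
  force (shrUp (Nat.add (Nat.mul B r.M) (Nat.mul (Nat.mul 2 r.nd) nU))) fun Mr =>
  force (errSup dq er Mr) fun η =>
  bif Nat.ble η 140737488355328 then
    force (Nat.succ (Nat.div (Nat.shiftLeft B 48) (Nat.sub 281474976710656 η))) fun κ =>
    force (shrUp (Nat.mul κ er)) fun e => force (shrUp (Nat.mul κ Mr)) fun M =>
    k ⟨X, Y, U, V, nX, nU, e, M⟩
  else false

/-- inverse, a posteriori -/
def invR (dl dq : ℕ) (r : R) (k : R → Bool) : Bool :=
  force (Nat.sub r.wx 4611686018427387904) fun a =>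
  force (Nat.sub 4611686018427387904 r.wx) fun a' =>
  force (Nat.sub r.wy 4611686018427387904) fun b =>
  force (Nat.sub 4611686018427387904 r.wy) fun b' =>
  force (Nat.add (Nat.mul (Nat.add a a') (Nat.add a a'))
    (Nat.mul (Nat.add b b') (Nat.add b b'))) fun n2 =>
  force (Nat.sub (Nat.add 4611686018427387904 (Nat.div (Nat.shiftLeft a 96) n2))
    (Nat.div (Nat.shiftLeft a' 96) n2)) fun X =>
  force (Nat.sub (Nat.add 4611686018427387904 (Nat.div (Nat.shiftLeft b' 96) n2))
    (Nat.div (Nat.shiftLeft b 96) n2)) fun Y =>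
  force (reMul X Y X Y) fun P => force (imMul X Y X Y) fun Q =>
  force (Nat.sub 9223372036854775808 (reMul P Q r.dx r.dy)) fun U =>
  force (Nat.sub 9223372036854775808 (imMul P Q r.dx r.dy)) fun V =>
  invChk dl dq r X Y U V k

theorem kappa_spec {B η : ℕ} (hη : η ≤ 140737488355328) :
    uv B ≤ uv (Nat.succ (Nat.div (Nat.shiftLeft B 48) (Nat.sub 281474976710656 η)))
      * (1 - uv η) := by
  have e1 : Nat.shiftLeft B 48 = B * 281474976710656 := (Nat.shiftLeft_eq _ 48).trans (by norm_num)
  have e2 : Nat.sub 281474976710656 η = 281474976710656 - η := rfl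
  have hpos : 0 < 281474976710656 - η := by omega
  rw [e1, e2]
  have h : B * 281474976710656 < (B * 281474976710656 / (281474976710656 - η) + 1)
      * (281474976710656 - η) := by
    have := Nat.lt_div_mul_add (a := B * 281474976710656) (b := 281474976710656 - η) hpos
    linarith
  have h' : ((B * 281474976710656 : ℕ) : ℝ) <
      (((B * 281474976710656 / (281474976710656 - η) + 1) * (281474976710656 - η) : ℕ) : ℝ) := by
    exact_mod_cast h
  rw [Nat.cast_mul (B * 281474976710656 / (281474976710656 - η) + 1), Nat.cast_sub (by omega)] at h'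
  have e3 : Nat.succ (Nat.div (B * 281474976710656) (281474976710656 - η))
      = B * 281474976710656 / (281474976710656 - η) + 1 := rfl
  rw [e3]
  unfold uv
  have e4 : ((B * 281474976710656 / (281474976710656 - η) + 1 : ℕ) : ℝ) / 281474976710656
      * (1 - (η : ℝ) / 281474976710656)
      = (((B * 281474976710656 / (281474976710656 - η) + 1 : ℕ) : ℝ)
        * (281474976710656 - (η : ℝ))) / 281474976710656 / 281474976710656 := by
    field_simp
  rw [e4]
  refine div_le_div_of_nonneg_right ?_ (by norm_num)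
  rw [le_div_iff₀ (by norm_num)]
  push_cast at h' ⊢
  linarith

theorem mul_shrUp_add (a b : ℕ) : uv a * uv b ≤ uv (shrUp (Nat.mul a b)) := uv_mul_le a b

theorem invChk_sound {dl dq : ℕ} {r : R} {X Y U V : ℕ} {k : R → Bool}
    (h : invChk dl dq r X Y U V k = true) {δ : ℝ} (hδ : DOk δ dl dq) {G : ℝ → ℂ}
    (hr : r.Ok δ G) : ∃ t : R, t.Ok δ (fun φ => (G φ)⁻¹) ∧ k t = true := by
  unfold invChk at h
  obtain ⟨h1, h⟩ := fz_true h
  obtain ⟨h2, h⟩ := fz_true h
  obtain ⟨h3, h⟩ := fz_true h
  obtain ⟨h4, h⟩ := fz_true h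
  obtain ⟨h5, h⟩ := fz_true h
  obtain ⟨h6, h⟩ := fz_true h
  obtain ⟨h7, h⟩ := fz_true h
  obtain ⟨h8, h⟩ := fz_true h
  obtain ⟨h9, h⟩ := fz_true h
  simp only [force_eq] at h
  have hnX : ‖cval X Y‖ ≤ uv (nrm X Y) := nrm_spec X Y
  have hnU : ‖cval U V‖ ≤ uv (nrm U V) := nrm_spec U V
  have hB := linSup_spec hδ hnX hnU
  set nX := nrm X Y
  set nU := nrm U V
  set B := linSup dl nX nU
  set P1 := reMul r.wx r.wy X Y
  set Q1 := imMul r.wx r.wy X Y
  set P2 := osub P1 4611967493404098560
  set U1 := reMul r.wx r.wy U V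
  set V1 := imMul r.wx r.wy U V
  set U2 := reMul X Y r.dx r.dy
  set V2 := imMul X Y r.dx r.dy
  set U3 := oadd U1 U2
  set V3 := oadd V1 V2
  set er := Nat.add (Nat.add (shrUp (Nat.mul B r.e)) (Nat.add 2 (nrm P2 Q1)))
    (shrUp (Nat.mul dl (Nat.add 4 (nrm U3 V3)))) with her
  set Mr := shrUp (Nat.add (Nat.mul B r.M) (Nat.mul (Nat.mul 2 r.nd) nU)) with hMr
  set η := errSup dq er Mr with hη
  cases hc : Nat.ble η 140737488355328 with
  | false => rw [hc] at h; exact absurd h (by simp)
  | true =>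
    rw [hc] at h
    simp only [cond_true] at h
    have hηle : η ≤ 140737488355328 := Nat.le_of_ble_eq_true hc
    set κ := Nat.succ (Nat.div (Nat.shiftLeft B 48) (Nat.sub 281474976710656 η)) with hκ
    refine ⟨⟨X, Y, U, V, nX, nU, shrUp (Nat.mul κ er), shrUp (Nat.mul κ Mr)⟩,
      ⟨?_, hnX, hnU⟩, h⟩
    -- residual model
    have hlin : TM δ (fun φ : ℝ => cval X Y + φ * cval U V) (cval X Y) (cval U V) 0 0 :=
      TM.linear _ _
    have hprod := hr.tm.mul hlin hδ.nonneg (le_refl _) hB
      (C := 2 * uv r.nd * uv nU) (by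
        have := mul_le_mul hr.hd hnU (norm_nonneg _) (uv_nonneg _)
        linarith)
    simp only [mul_zero, zero_add] at hprod
    have hres : TM δ (fun φ => G φ * (cval X Y + φ * cval U V)) 1 0 (uv er) (uv Mr) := by
      refine hprod.mono hδ.nonneg (ew := uv (Nat.add 2 (nrm P2 Q1)))
        (ed := uv (Nat.add 4 (nrm U3 V3))) ?_ ?_ ?_ ?_
      · have i1 : ‖cval r.wx r.wy * cval X Y - cval P1 Q1‖ ≤ uv 2 := cmul_spec rfl rfl h1 h2
        have i2 : cval P2 Q1 = cval P1 Q1 - 1 := by
          rw [← cval_one]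
          apply Complex.ext
          · simp only [cval, Complex.sub_re]; exact (osub_spec rfl h3).symm
          · simp only [cval, Complex.sub_im, val_O, sub_zero]
        have i3 := nrm_spec P2 Q1
        rw [i2] at i3
        have i4 : uv (Nat.add 2 (nrm P2 Q1)) = uv 2 + uv (nrm P2 Q1) := uv_add _ _
        rw [i4]
        have i5 : ∀ a b : ℂ, a - 1 = (a - b) + (b - 1) := by intro a b; ring
        rw [i5 _ (cval P1 Q1)]
        exact (norm_add_le _ _).trans (add_le_add i1 i3)
      · have e1 : cval U3 V3 = cval U1 V1 + cval U2 V2 := by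
          apply Complex.ext
          · simp only [cval, Complex.add_re]; exact (oadd_spec rfl h8).symm
          · simp only [cval, Complex.add_im]; exact (oadd_spec rfl h9).symm
        have i1 : ‖cval r.wx r.wy * cval U V - cval U1 V1‖ ≤ uv 2 := cmul_spec rfl rfl h4 h5
        have i2 : ‖cval X Y * cval r.dx r.dy - cval U2 V2‖ ≤ uv 2 := cmul_spec rfl rfl h6 h7
        have i3 := nrm_spec U3 V3
        rw [e1] at i3
        have i4 : uv (Nat.add 4 (nrm U3 V3)) = uv 2 + uv 2 + uv (nrm U3 V3) := by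
          rw [← uv_add, ← uv_add]
          rfl
        rw [i4]
        have i5 : ∀ p q a b : ℂ, p + q - 0 = (p - a) + (q - b) + (a + b) := by
          intro p q a b; ring
        rw [i5 _ _ (cval U1 V1) (cval U2 V2)]
        exact (norm_add_le _ _).trans (add_le_add ((norm_add_le _ _).trans (add_le_add i1 i2)) i3)
      · have i1 : uv er = uv (shrUp (Nat.mul B r.e)) + uv (Nat.add 2 (nrm P2 Q1))
            + uv (shrUp (Nat.mul dl (Nat.add 4 (nrm U3 V3)))) := by
          rw [her]
          exact (uv_add _ _).trans (congrArg (· + _) (uv_add _ _))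
        rw [i1]
        have i2 := uv_mul_le B r.e
        have i3 := uv_mul_le dl (Nat.add 4 (nrm U3 V3))
        have i4 : δ * uv (Nat.add 4 (nrm U3 V3)) ≤ uv dl * uv (Nat.add 4 (nrm U3 V3)) :=
          mul_le_mul_of_nonneg_right hδ.le (uv_nonneg _)
        exact add_le_add (add_le_add i2 (le_refl _)) (i4.trans i3)
      · have := uv_shrUp_add3 B r.M 0 0 r.nd nU
        have z : uv 0 = 0 := by simp [uv]
        rw [z, mul_zero, add_zero, Nat.mul_zero, Nat.add_zero] at this
        exact this
    have hηs := errSup_spec hδ er Mr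
    have hη2 : uv η < 1 := by
      have := uv_mono hηle
      have h2 : uv 140737488355328 < 1 := by unfold uv; norm_num
      linarith
    have hk := kappa_spec (B := B) hηle
    have hfin := hres.inv hδ.nonneg hηs hη2 (hB.trans hk)
    exact hfin.weaken (uv_mul_le _ _) (uv_mul_le _ _)

theorem invR_sound {dl dq : ℕ} {r : R} {k : R → Bool} (h : invR dl dq r k = true) {δ : ℝ}
    (hδ : DOk δ dl dq) {G : ℝ → ℂ} (hr : r.Ok δ G) :
    ∃ t : R, t.Ok δ (fun φ => (G φ)⁻¹) ∧ k t = true := by
  unfold invR at h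
  simp only [force_eq] at h
  exact invChk_sound h hδ hr

end Fx

end Vale.Agent.P030.H822
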