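import Vale.Agent.P030.H822.Fx

/-!
P030, row NUM (helper822): kernel evaluator of arc models (`TM`), continuation passing style.
Every operation `op .. k : Bool` returns `false` if something is invalid and `k result` otherwise;
soundness: `op .. k = true → ∃ result, (result models the operation) ∧ k result = true`.
-/

namespace Vale.Agent.P030.H822

namespace Fx

open Real

/-- call by value, rejecting `0` -/
@[inline] def fz (n : ℕ) (f : ℕ → Bool) : Bool :=
  Nat.rec (motive := fun _ => Bool) false (fun m _ => f (Nat.succ m)) n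

theorem fz_true {n : ℕ} {f : ℕ → Bool} (h : fz n f = true) : n ≠ 0 ∧ f n = true := by
  cases n with
  | zero => exact absurd h (by simp [fz])
  | succ m => exact ⟨Nat.succ_ne_zero m, h⟩

/-- arc parameters: `δ ≤ dl`, `δ²/2 ≤ dq`, `δ ≤ 1/4` -/
structure DOk (δ : ℝ) (dl dq : ℕ) : Prop where
  nonneg : 0 ≤ δ
  le : δ ≤ uv dl
  sq : δ ^ 2 / 2 ≤ uv dq
  small : δ ≤ 1 / 4

/-- a model record -/
structure R where
  wx : ℕ
  wy : ℕ
  dx : ℕ
  dy : ℕ
  nw : ℕ
  nd : ℕ
  e : ℕ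
  M : ℕ

structure R.Ok (r : R) (δ : ℝ) (G : ℝ → ℂ) : Prop where
  tm : TM δ G (cval r.wx r.wy) (cval r.dx r.dy) (uv r.e) (uv r.M)
  hw : ‖cval r.wx r.wy‖ ≤ uv r.nw
  hd : ‖cval r.dx r.dy‖ ≤ uv r.nd

/-- build a record, computing the norms -/
def mkR (X Y U V e M : ℕ) (k : R → Bool) : Bool :=
  force e fun e => force M fun M =>
  force (nrm X Y) fun nw => force (nrm U V) fun nd => k ⟨X, Y, U, V, nw, nd, e, M⟩

theorem mkR_sound {X Y U V e M : ℕ} {k : R → Bool} (h : mkR X Y U V e M k = true) {δ : ℝ}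
    {G : ℝ → ℂ} (tm : TM δ G (cval X Y) (cval U V) (uv e) (uv M)) :
    ∃ r : R, r.Ok δ G ∧ k r = true := by
  have h' : k ⟨X, Y, U, V, nrm X Y, nrm U V, e, M⟩ = true := by
    simpa only [mkR, force_eq] using h
  exact ⟨⟨X, Y, U, V, nrm X Y, nrm U V, e, M⟩, ⟨tm, nrm_spec X Y, nrm_spec U V⟩, h'⟩

def O : ℕ := 4611686018427387904

theorem val_O : val 4611686018427387904 = 0 := by unfold val; norm_num

theorem cval_zero : cval 4611686018427387904 4611686018427387904 = 0 := by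
  apply Complex.ext <;> simp [cval, val_O]

/-- constants -/
def constR (X Y e : ℕ) (k : R → Bool) : Bool :=
  mkR X Y 4611686018427387904 4611686018427387904 e 0 k

theorem constR_sound {X Y e : ℕ} {k : R → Bool} (h : constR X Y e k = true) {δ : ℝ} {c : ℂ}
    (hc : ‖c - cval X Y‖ ≤ uv e) : ∃ r : R, r.Ok δ (fun _ => c) ∧ k r = true := by
  refine mkR_sound h ?_
  rw [cval_zero]
  have := TM.const (δ := δ) hc
  have e0 : uv 0 = 0 := by simp [uv]
  rwa [e0]

/-- sum -/
def addR (r s : R) (k : R → Bool) : Bool :=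
  fz (oadd r.wx s.wx) fun X => fz (oadd r.wy s.wy) fun Y =>
  fz (oadd r.dx s.dx) fun U => fz (oadd r.dy s.dy) fun V =>
  mkR X Y U V (Nat.add r.e s.e) (Nat.add r.M s.M) k

theorem addR_sound {r s : R} {k : R → Bool} (h : addR r s k = true) {δ : ℝ} {G H : ℝ → ℂ}
    (hr : r.Ok δ G) (hs : s.Ok δ H) : ∃ t : R, t.Ok δ (fun φ => G φ + H φ) ∧ k t = true := by
  unfold addR at h
  obtain ⟨h1, h⟩ := fz_true h
  obtain ⟨h2, h⟩ := fz_true h
  obtain ⟨h3, h⟩ := fz_true h
  obtain ⟨h4, h⟩ := fz_true h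
  refine mkR_sound h ?_
  have e1 : cval (oadd r.wx s.wx) (oadd r.wy s.wy) = cval r.wx r.wy + cval s.wx s.wy := by
    apply Complex.ext
    · simp only [cval, Complex.add_re]; exact (oadd_spec rfl h1).symm
    · simp only [cval, Complex.add_im]; exact (oadd_spec rfl h2).symm
  have e2 : cval (oadd r.dx s.dx) (oadd r.dy s.dy) = cval r.dx r.dy + cval s.dx s.dy := by
    apply Complex.ext
    · simp only [cval, Complex.add_re]; exact (oadd_spec rfl h3).symm
    · simp only [cval, Complex.add_im]; exact (oadd_spec rfl h4).symm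
  rw [e1, e2]
  have := hr.tm.add hs.tm
  rw [← uv_add, ← uv_add] at this
  exact this

/-- difference -/
def subR (r s : R) (k : R → Bool) : Bool :=
  fz (osub r.wx s.wx) fun X => fz (osub r.wy s.wy) fun Y =>
  fz (osub r.dx s.dx) fun U => fz (osub r.dy s.dy) fun V =>
  mkR X Y U V (Nat.add r.e s.e) (Nat.add r.M s.M) k

theorem subR_sound {r s : R} {k : R → Bool} (h : subR r s k = true) {δ : ℝ} {G H : ℝ → ℂ}
    (hr : r.Ok δ G) (hs : s.Ok δ H) : ∃ t : R, t.Ok δ (fun φ => G φ - H φ) ∧ k t = true := by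
  unfold subR at h
  obtain ⟨h1, h⟩ := fz_true h
  obtain ⟨h2, h⟩ := fz_true h
  obtain ⟨h3, h⟩ := fz_true h
  obtain ⟨h4, h⟩ := fz_true h
  refine mkR_sound h ?_
  have e1 : cval (osub r.wx s.wx) (osub r.wy s.wy) = cval r.wx r.wy - cval s.wx s.wy := by
    apply Complex.ext
    · simp only [cval, Complex.sub_re]; exact (osub_spec rfl h1).symm
    · simp only [cval, Complex.sub_im]; exact (osub_spec rfl h2).symm
  have e2 : cval (osub r.dx s.dx) (osub r.dy s.dy) = cval r.dx r.dy - cval s.dx s.dy := by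
    apply Complex.ext
    · simp only [cval, Complex.sub_re]; exact (osub_spec rfl h3).symm
    · simp only [cval, Complex.sub_im]; exact (osub_spec rfl h4).symm
  rw [e1, e2]
  have := hr.tm.sub hs.tm
  rw [← uv_add, ← uv_add] at this
  exact this

/-- `|w| + |d| δ` -/
def linSup (dl nw nd : ℕ) : ℕ := Nat.add nw (shrUp (Nat.mul nd dl))

theorem linSup_spec {δ : ℝ} {dl dq : ℕ} (hδ : DOk δ dl dq) {nw nd : ℕ} {w d : ℂ}
    (hw : ‖w‖ ≤ uv nw) (hd : ‖d‖ ≤ uv nd) : ‖w‖ + ‖d‖ * δ ≤ uv (linSup dl nw nd) := by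
  have h1 : ‖d‖ * δ ≤ uv (shrUp (nd * dl)) :=
    (mul_le_mul hd hδ.le hδ.nonneg (uv_nonneg _)).trans (uv_mul_le nd dl)
  have : uv (linSup dl nw nd) = uv nw + uv (shrUp (nd * dl)) := uv_add _ _
  rw [this]
  exact add_le_add hw h1

/-- `e + M δ²/2` -/
def errSup (dq e M : ℕ) : ℕ := Nat.add e (shrUp (Nat.mul M dq))

theorem errSup_spec {δ : ℝ} {dl dq : ℕ} (hδ : DOk δ dl dq) (e M : ℕ) :
    uv e + uv M * δ ^ 2 / 2 ≤ uv (errSup dq e M) := by
  have h1 : uv M * δ ^ 2 / 2 ≤ uv (shrUp (M * dq)) := by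
    refine le_trans ?_ (uv_mul_le M dq)
    rw [mul_div_assoc]
    exact mul_le_mul_of_nonneg_left hδ.sq (uv_nonneg _)
  have : uv (errSup dq e M) = uv e + uv (shrUp (M * dq)) := uv_add _ _
  rw [this]
  linarith

/-- product -/
def mulR (dl dq : ℕ) (r s : R) (k : R → Bool) : Bool :=
  fz (reMul r.wx r.wy s.wx s.wy) fun X => fz (imMul r.wx r.wy s.wx s.wy) fun Y =>
  fz (reMul r.wx r.wy s.dx s.dy) fun U1 => fz (imMul r.wx r.wy s.dx s.dy) fun V1 =>
  fz (reMul s.wx s.wy r.dx r.dy) fun U2 => fz (imMul s.wx s.wy r.dx r.dy) fun V2 =>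
  fz (oadd U1 U2) fun U => fz (oadd V1 V2) fun V =>
  force (linSup dl s.nw s.nd) fun B =>
  force (Nat.add (linSup dl r.nw r.nd) (errSup dq r.e r.M)) fun A =>
  mkR X Y U V (Nat.add (shrUp (Nat.add (Nat.mul A s.e) (Nat.mul B r.e))) 3)
    (shrUp (Nat.add (Nat.add (Nat.mul A s.M) (Nat.mul B r.M)) (Nat.mul (Nat.mul 2 r.nd) s.nd))) k

theorem uv_shrUp_add (a b c d : ℕ) : uv a * uv b + uv c * uv d ≤ uv (shrUp (a * b + c * d)) := by
  have h := shrUp_spec (a * b + c * d)
  unfold uv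
  rw [show (a : ℝ) / 281474976710656 * ((b : ℝ) / 281474976710656)
    + (c : ℝ) / 281474976710656 * ((d : ℝ) / 281474976710656)
    = (((a : ℝ) * b + c * d) / 281474976710656) / 281474976710656 by ring]
  push_cast at h
  exact div_le_div_of_nonneg_right h (by norm_num)

theorem uv_shrUp_add3 (a b c d f g : ℕ) : uv a * uv b + uv c * uv d + 2 * uv f * uv g
    ≤ uv (shrUp (a * b + c * d + 2 * f * g)) := by
  have h := shrUp_spec (a * b + c * d + 2 * f * g)
  unfold uv
  rw [show (a : ℝ) / 281474976710656 * ((b : ℝ) / 281474976710656)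
    + (c : ℝ) / 281474976710656 * ((d : ℝ) / 281474976710656)
    + 2 * ((f : ℝ) / 281474976710656) * ((g : ℝ) / 281474976710656)
    = (((a : ℝ) * b + c * d + 2 * f * g) / 281474976710656) / 281474976710656 by ring]
  push_cast at h
  exact div_le_div_of_nonneg_right h (by norm_num)

theorem mulR_sound {dl dq : ℕ} {r s : R} {k : R → Bool} (h : mulR dl dq r s k = true) {δ : ℝ}
    (hδ : DOk δ dl dq) {G H : ℝ → ℂ} (hr : r.Ok δ G) (hs : s.Ok δ H) :
    ∃ t : R, t.Ok δ (fun φ => G φ * H φ) ∧ k t = true := by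
  unfold mulR at h
  obtain ⟨h1, h⟩ := fz_true h
  obtain ⟨h2, h⟩ := fz_true h
  obtain ⟨h3, h⟩ := fz_true h
  obtain ⟨h4, h⟩ := fz_true h
  obtain ⟨h5, h⟩ := fz_true h
  obtain ⟨h6, h⟩ := fz_true h
  obtain ⟨h7, h⟩ := fz_true h
  obtain ⟨h8, h⟩ := fz_true h
  simp only [force_eq] at h
  refine mkR_sound h ?_
  have hA : ‖cval r.wx r.wy‖ + ‖cval r.dx r.dy‖ * δ + uv r.e + uv r.M * δ ^ 2 / 2
      ≤ uv (Nat.add (linSup dl r.nw r.nd) (errSup dq r.e r.M)) := by
    have h10 := linSup_spec hδ hr.hw hr.hd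
    have h11 := errSup_spec hδ r.e r.M
    have : uv (Nat.add (linSup dl r.nw r.nd) (errSup dq r.e r.M))
      = uv (linSup dl r.nw r.nd) + uv (errSup dq r.e r.M) := uv_add _ _
    rw [this]
    linarith
  have hB := linSup_spec hδ hs.hw hs.hd
  have hC : 2 * ‖cval r.dx r.dy‖ * ‖cval s.dx s.dy‖ ≤ 2 * uv r.nd * uv s.nd := by
    have := mul_le_mul hr.hd hs.hd (norm_nonneg _) (uv_nonneg _)
    linarith
  have key := hr.tm.mul hs.tm hδ.nonneg hA hB hC
  set A := Nat.add (linSup dl r.nw r.nd) (errSup dq r.e r.M)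
  set B := linSup dl s.nw s.nd
  refine key.mono hδ.nonneg (ew := uv 2) (ed := uv 4) (cmul_spec rfl rfl h1 h2) ?_ ?_ ?_
  · have e1 : cval (oadd (reMul r.wx r.wy s.dx s.dy) (reMul s.wx s.wy r.dx r.dy))
        (oadd (imMul r.wx r.wy s.dx s.dy) (imMul s.wx s.wy r.dx r.dy))
        = cval (reMul r.wx r.wy s.dx s.dy) (imMul r.wx r.wy s.dx s.dy)
          + cval (reMul s.wx s.wy r.dx r.dy) (imMul s.wx s.wy r.dx r.dy) := by
      apply Complex.ext
      · simp only [cval, Complex.add_re]; exact (oadd_spec rfl h7).symm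
      · simp only [cval, Complex.add_im]; exact (oadd_spec rfl h8).symm
    rw [e1]
    have i1 := cmul_spec (a := r.wx) (b := r.wy) (c := s.dx) (d := s.dy) rfl rfl h3 h4
    have i2 := cmul_spec (a := s.wx) (b := s.wy) (c := r.dx) (d := r.dy) rfl rfl h5 h6
    have : uv 4 = uv 2 + uv 2 := by rw [← uv_add]
    rw [this]
    have e3 : ∀ p q a b : ℂ, p + q - (a + b) = (p - a) + (q - b) := by intro p q a b; ring
    rw [e3]
    exact (norm_add_le _ _).trans (add_le_add i1 i2)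
  · have h10 := uv_shrUp_add A s.e B r.e
    have h11 : uv (Nat.add (shrUp (Nat.add (Nat.mul A s.e) (Nat.mul B r.e))) 3)
        = uv (shrUp (A * s.e + B * r.e)) + uv 3 := uv_add _ _
    rw [h11]
    have h12 : δ * uv 4 ≤ uv 1 := by
      have := hδ.small
      unfold uv
      push_cast
      linarith
    have h13 : uv 3 = uv 2 + uv 1 := by rw [← uv_add]
    rw [h13]
    linarith
  · exact uv_shrUp_add3 A s.M B r.M r.nd s.nd

end Fx

end Vale.Agent.P030.H822
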