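import Vale.Agent.P030.H822.Arc

/-!
P030, row NUM (helper822): second order bound of `log max ‖w - p‖ ρ` along an arc.

Arc data: `G : ℝ → ℂ` (the function along the arc), `‖G φ - w0 - φ D‖ ≤ e + M φ² / 2`, `‖D‖ ≤ Db`
for `|φ| ≤ δ`.  With `a = ‖w0 - p‖`, `α = e + M δ² / 2`, `R = e + Db δ + M δ² / 2`:

* far   (`ρ + R ≤ a`): mean `≤ log a + e/a + M δ²/(6a) + (α² + α Db δ + Db² δ²/3)/(2a²)`;
* near  (`a + R ≤ ρ`): value `log ρ`;
* cross (always)     : mean `≤ log A + (e + Db δ/2 + M δ²/6)/A`, `A = max a ρ` (or anything larger).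

`circleAverage_nodes_le` : the circle average of `∑ c_l log max ‖g - p_l‖ ρ_l`.
-/

namespace Vale.Agent.P030.H822

open Real MeasureTheory intervalIntegral Set
open scoped BigOperators ComplexConjugate

noncomputable section

/-- `|1 + x| ≤ exp (Re x + |x|²/2)` -/
theorem norm_one_add_le (x : ℂ) : ‖1 + x‖ ≤ exp (x.re + ‖x‖ ^ 2 / 2) := by
  have h1 : ‖1 + x‖ ^ 2 = 1 + 2 * x.re + ‖x‖ ^ 2 := by
    rw [← Complex.normSq_eq_norm_sq, ← Complex.normSq_eq_norm_sq]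
    simp only [Complex.normSq_apply, Complex.add_re, Complex.one_re, Complex.add_im,
      Complex.one_im, zero_add]
    ring
  have h2 : ‖1 + x‖ ^ 2 ≤ exp (x.re + ‖x‖ ^ 2 / 2) ^ 2 := by
    rw [h1, ← Real.exp_nat_mul]
    have := Real.add_one_le_exp ((2 : ℕ) * (x.re + ‖x‖ ^ 2 / 2))
    push_cast at this ⊢
    linarith
  exact le_of_sq_le_sq h2 (exp_pos _).le |> fun h => h
where
  le_of_sq_le_sq {a b : ℝ} (h : a ^ 2 ≤ b ^ 2) (hb : 0 ≤ b) : a ≤ b := by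
    exact (abs_le_of_sq_le_sq' h hb).2

theorem log_norm_le {w0 w p : ℂ} (h0 : w0 ≠ p) (h1 : w ≠ p) :
    log ‖w - p‖ ≤ log ‖w0 - p‖ + ((w - w0) / (w0 - p)).re
      + ‖w - w0‖ ^ 2 / (2 * ‖w0 - p‖ ^ 2) := by
  have ha : 0 < ‖w0 - p‖ := norm_pos_iff.2 (sub_ne_zero.2 h0)
  have hw : 0 < ‖w - p‖ := norm_pos_iff.2 (sub_ne_zero.2 h1)
  have hne : w0 - p ≠ 0 := sub_ne_zero.2 h0
  have e1 : w - p = (w0 - p) * (1 + (w - w0) / (w0 - p)) := by
    field_simp; ring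
  have e2 : ‖w - p‖ = ‖w0 - p‖ * ‖1 + (w - w0) / (w0 - p)‖ := by
    rw [← norm_mul, ← e1]
  have h3 : ‖w - p‖ ≤ ‖w0 - p‖ *
      exp (((w - w0) / (w0 - p)).re + ‖(w - w0) / (w0 - p)‖ ^ 2 / 2) := by
    rw [e2]
    exact mul_le_mul_of_nonneg_left (norm_one_add_le _) ha.le
  have h4 := Real.log_le_log hw h3
  rw [Real.log_mul ha.ne' (exp_pos _).ne', Real.log_exp, norm_div, div_pow] at h4
  have e3 : ‖w - w0‖ ^ 2 / ‖w0 - p‖ ^ 2 / 2 = ‖w - w0‖ ^ 2 / (2 * ‖w0 - p‖ ^ 2) := by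
    rw [div_div]; ring
  rw [e3] at h4
  linarith

/-- first order bound -/
theorem log_max_le {w0 w p : ℂ} {ρ A t : ℝ} (hρ : 0 < ρ) (hA : ‖w0 - p‖ ≤ A) (hA' : ρ ≤ A)
    (ht : ‖w - w0‖ ≤ t) : log (max ‖w - p‖ ρ) ≤ log A + t / A := by
  have hA0 : 0 < A := hρ.trans_le hA'
  have ht0 : 0 ≤ t := (norm_nonneg _).trans ht
  have h1 : ‖w - p‖ ≤ A + t := by
    have : w - p = (w0 - p) + (w - w0) := by ring
    rw [this]
    exact (norm_add_le _ _).trans (add_le_add hA ht)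
  have h2 : max ‖w - p‖ ρ ≤ A * exp (t / A) := by
    have h3 : A + t ≤ A * exp (t / A) := by
      have := Real.add_one_le_exp (t / A)
      calc A + t = A * (t / A + 1) := by field_simp; ring
        _ ≤ A * exp (t / A) := mul_le_mul_of_nonneg_left this hA0.le
    exact max_le (h1.trans h3) (hA'.trans (by linarith))
  have h4 := Real.log_le_log (lt_max_of_lt_right hρ) h2
  rwa [Real.log_mul hA0.ne' (exp_pos _).ne', Real.log_exp] at h4

/-- the arc data -/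
structure ArcOK (G : ℝ → ℂ) (w0 : ℂ) (e Db M δ : ℝ) : Prop where
  e0 : 0 ≤ e
  M0 : 0 ≤ M
  δ0 : 0 ≤ δ
  ex : ∃ D : ℂ, ‖D‖ ≤ Db ∧ ∀ φ : ℝ, |φ| ≤ δ → ‖G φ - w0 - φ * D‖ ≤ e + M * φ ^ 2 / 2

/-- `m` bounds the mean over the arc of `log max ‖G - p‖ ρ` for arc data `(w0, e, Db, M, δ)` -/
inductive MeanOK (w0 p : ℂ) (e Db M δ ρ : ℝ) : ℝ → Prop
  | far (a m : ℝ) (ha : 0 < a) (ha1 : a ≤ ‖w0 - p‖) (hfar : ρ + (e + Db * δ + M * δ ^ 2 / 2) ≤ a)
      (hm : log ‖w0 - p‖ + e / a + M * δ ^ 2 / (6 * a) + ((e + M * δ ^ 2 / 2) ^ 2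
        + (e + M * δ ^ 2 / 2) * Db * δ + Db ^ 2 * δ ^ 2 / 3) / (2 * a ^ 2) ≤ m) :
      MeanOK w0 p e Db M δ ρ m
  | near (m : ℝ) (h : ‖w0 - p‖ + (e + Db * δ + M * δ ^ 2 / 2) ≤ ρ) (hm : log ρ ≤ m) :
      MeanOK w0 p e Db M δ ρ m
  | cross (A m : ℝ) (hA : ‖w0 - p‖ ≤ A) (hA' : ρ ≤ A)
      (hm : log A + (e + Db * δ / 2 + M * δ ^ 2 / 6) / A ≤ m) : MeanOK w0 p e Db M δ ρ m

/-- pointwise form: `b + l φ + k |φ| + q φ²` with mean at most `m` -/
theorem ArcOK.pointwise {G : ℝ → ℂ} {w0 p : ℂ} {e Db M δ ρ m : ℝ} (h : ArcOK G w0 e Db M δ)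
    (hρ : 0 < ρ) (hm : MeanOK w0 p e Db M δ ρ m) :
    ∃ b l k q : ℝ, (∀ φ : ℝ, |φ| ≤ δ → log (max ‖G φ - p‖ ρ) ≤ b + l * φ + k * |φ| + q * φ ^ 2) ∧
      b + k * δ / 2 + q * δ ^ 2 / 3 ≤ m := by
  obtain ⟨D, hD, hG⟩ := h.ex
  have hDb : 0 ≤ Db := (norm_nonneg _).trans hD
  have hδ := h.δ0
  have he := h.e0
  have hM := h.M0
  have hsq : ∀ φ : ℝ, |φ| ≤ δ → φ ^ 2 ≤ δ ^ 2 := fun φ hφ => sq_le_sq' (by linarith [(abs_le.1 hφ).1])
    (abs_le.1 hφ).2
  have hdist : ∀ φ : ℝ, |φ| ≤ δ → ‖G φ - w0‖ ≤ e + Db * |φ| + M * φ ^ 2 / 2 := by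
    intro φ hφ
    have e1 : G φ - w0 = (G φ - w0 - φ * D) + φ * D := by ring
    rw [e1]
    refine (norm_add_le _ _).trans ?_
    rw [norm_mul, Complex.norm_real, Real.norm_eq_abs]
    have := hG φ hφ
    have h2 : |φ| * ‖D‖ ≤ Db * |φ| := by
      rw [mul_comm]; exact mul_le_mul_of_nonneg_right hD (abs_nonneg _)
    linarith
  have hR : ∀ φ : ℝ, |φ| ≤ δ → ‖G φ - w0‖ ≤ e + Db * δ + M * δ ^ 2 / 2 := by
    intro φ hφ
    have h1 := hdist φ hφ
    have h2 : Db * |φ| ≤ Db * δ := mul_le_mul_of_nonneg_left hφ hDb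
    have h3 : M * φ ^ 2 ≤ M * δ ^ 2 := mul_le_mul_of_nonneg_left (hsq φ hφ) hM
    linarith
  cases hm with
  | far a _ ha ha1 hfar hm =>
    have hRnn : 0 ≤ e + Db * δ + M * δ ^ 2 / 2 := by positivity
    have hw0 : w0 ≠ p := by
      intro hc
      rw [hc, sub_self, norm_zero] at ha1
      linarith
    refine ⟨log ‖w0 - p‖ + e / a + (e + M * δ ^ 2 / 2) ^ 2 / (2 * a ^ 2), (D / (w0 - p)).re,
      (e + M * δ ^ 2 / 2) * Db / a ^ 2, M / (2 * a) + Db ^ 2 / (2 * a ^ 2), ?_, ?_⟩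
    · intro φ hφ
      have hfarφ : ρ ≤ ‖G φ - p‖ := by
        have h1 : ‖w0 - p‖ ≤ ‖G φ - p‖ + ‖G φ - w0‖ := by
          have : w0 - p = (G φ - p) - (G φ - w0) := by ring
          rw [this]; exact norm_sub_le _ _
        linarith [hR φ hφ]
      have hGp : G φ ≠ p := by
        intro hc
        rw [hc, sub_self, norm_zero] at hfarφ
        linarith
      rw [max_eq_left hfarφ]
      refine (log_norm_le hw0 hGp).trans ?_
      have hapos : 0 < ‖w0 - p‖ := ha.trans_le ha1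
      -- linear term
      have h1 : ((G φ - w0) / (w0 - p)).re ≤ (D / (w0 - p)).re * φ + (e + M * φ ^ 2 / 2) / a := by
        have e1 : (G φ - w0) / (w0 - p) = φ * (D / (w0 - p)) + (G φ - w0 - φ * D) / (w0 - p) := by
          rw [sub_div _ (φ * D), mul_div_assoc]; ring
        rw [e1, Complex.add_re, Complex.re_ofReal_mul]
        have h2 : ((G φ - w0 - φ * D) / (w0 - p)).re ≤ (e + M * φ ^ 2 / 2) / a := by
          refine (Complex.re_le_norm _).trans ?_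
          rw [norm_div]
          exact div_le_div₀ (by positivity) (hG φ hφ) ha ha1
        linarith
      have h2 : ‖G φ - w0‖ ^ 2 / (2 * ‖w0 - p‖ ^ 2) ≤
          (e + M * δ ^ 2 / 2 + Db * |φ|) ^ 2 / (2 * a ^ 2) := by
        refine div_le_div₀ (by positivity) ?_ (by positivity) ?_
        · refine pow_le_pow_left₀ (norm_nonneg _) ?_ 2
          have := hdist φ hφ
          have h3 : M * φ ^ 2 ≤ M * δ ^ 2 := mul_le_mul_of_nonneg_left (hsq φ hφ) hM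
          linarith
        · have := pow_le_pow_left₀ ha.le ha1 2
          linarith
      have h3 : (e + M * δ ^ 2 / 2 + Db * |φ|) ^ 2 / (2 * a ^ 2)
          = (e + M * δ ^ 2 / 2) ^ 2 / (2 * a ^ 2) + (e + M * δ ^ 2 / 2) * Db / a ^ 2 * |φ|
            + Db ^ 2 / (2 * a ^ 2) * φ ^ 2 := by
        have : |φ| ^ 2 = φ ^ 2 := sq_abs φ
        field_simp
        rw [← this]; ring
      have h4 : (e + M * φ ^ 2 / 2) / a = e / a + M / (2 * a) * φ ^ 2 := by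
        field_simp
      rw [h3] at h2
      rw [h4] at h1
      linarith
    · refine le_trans (le_of_eq ?_) hm
      field_simp
      ring
  | near _ h hm =>
    refine ⟨log ρ, 0, 0, 0, ?_, by linarith⟩
    intro φ hφ
    have h1 : ‖G φ - p‖ ≤ ρ := by
      have : G φ - p = (G φ - w0) + (w0 - p) := by ring
      rw [this]
      exact (norm_add_le _ _).trans (by linarith [hR φ hφ])
    rw [max_eq_right h1]
    simp
  | cross A _ hA hA' hm =>
    have hA0 : 0 < A := hρ.trans_le hA'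
    refine ⟨log A + e / A, 0, Db / A, M / (2 * A), ?_, ?_⟩
    · intro φ hφ
      refine (log_max_le hρ hA hA' (hdist φ hφ)).trans (le_of_eq ?_)
      field_simp
      ring
    · refine le_trans (le_of_eq ?_) hm
      field_simp
      ring

/-- **The certificate theorem** for circle means of node potentials. -/
theorem circleAverage_nodes_le {ι : Type*} (L : Finset ι) {c ρ : ι → ℝ} {p : ι → ℂ}
    (hc : ∀ l ∈ L, 0 ≤ c l) (hρ : ∀ l ∈ L, 0 < ρ l) {g : ℂ → ℂ} {r : ℝ}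
    (hg : ContinuousOn g (Metric.sphere 0 |r|)) {N : ℕ} (hN : 0 < N) (w0 : ℕ → ℂ)
    (e Db M : ℕ → ℝ)
    (harc : ∀ j < N, ArcOK (fun φ => g (circleMap 0 r (ctr N j + φ))) (w0 j) (e j) (Db j) (M j)
      (π / N)) (m : ℕ → ι → ℝ)
    (hm : ∀ j < N, ∀ l ∈ L, MeanOK (w0 j) (p l) (e j) (Db j) (M j) (π / N) (ρ l) (m j l)) :
    circleAverage (fun z => ∑ l ∈ L, c l * log (max ‖g z - p l‖ (ρ l))) 0 r ≤
      (∑ j ∈ Finset.range N, ∑ l ∈ L, c l * m j l) / N := by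
  classical
  have hcont : ContinuousOn (fun z => ∑ l ∈ L, c l * log (max ‖g z - p l‖ (ρ l)))
      (Metric.sphere 0 |r|) := by
    refine continuousOn_finsetSum _ fun l hl => ContinuousOn.mul continuousOn_const ?_
    refine ContinuousOn.log ?_ fun z _ => (lt_max_of_lt_right (hρ l hl)).ne'
    exact ((hg.sub continuousOn_const).norm).sup continuousOn_const
  have hint : CircleIntegrable (fun z => ∑ l ∈ L, c l * log (max ‖g z - p l‖ (ρ l))) 0 r := by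
    exact hcont.circleIntegrable'
  have hpt : ∀ j : ℕ, ∀ l : ι, ∃ b l' k q : ℝ, (j < N → l ∈ L →
      (∀ φ : ℝ, |φ| ≤ π / N → log (max ‖g (circleMap 0 r (ctr N j + φ)) - p l‖ (ρ l)) ≤
        b + l' * φ + k * |φ| + q * φ ^ 2) ∧ b + k * (π / N) / 2 + q * (π / N) ^ 2 / 3 ≤ m j l) := by
    intro j l
    by_cases hj : j < N
    · by_cases hl : l ∈ L
      · obtain ⟨b, l', k, q, h1, h2⟩ := (harc j hj).pointwise (hρ l hl) (hm j hj l hl)
        exact ⟨b, l', k, q, fun _ _ => ⟨h1, h2⟩⟩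
      · exact ⟨0, 0, 0, 0, fun _ h => absurd h hl⟩
    · exact ⟨0, 0, 0, 0, fun h => absurd h hj⟩
  choose b l' k q hbq using hpt
  have key := circleAverage_le_quad hint hN (fun j => ∑ l ∈ L, c l * b j l)
    (fun j => ∑ l ∈ L, c l * l' j l) (fun j => ∑ l ∈ L, c l * k j l)
    (fun j => ∑ l ∈ L, c l * q j l) ?_
  · refine key.trans ?_
    have hN' : (0 : ℝ) < N := by exact_mod_cast hN
    refine div_le_div_of_nonneg_right (Finset.sum_le_sum fun j hj => ?_) hN'.le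
    have hj' := Finset.mem_range.1 hj
    rw [Finset.sum_mul, Finset.sum_div, Finset.sum_mul, Finset.sum_div, ← Finset.sum_add_distrib,
      ← Finset.sum_add_distrib]
    refine Finset.sum_le_sum fun l hl => ?_
    have := mul_le_mul_of_nonneg_left (hbq j l hj' hl).2 (hc l hl)
    linarith
  · intro j hj φ hφ
    rw [Finset.sum_mul, Finset.sum_mul, Finset.sum_mul, ← Finset.sum_add_distrib,
      ← Finset.sum_add_distrib, ← Finset.sum_add_distrib]
    refine Finset.sum_le_sum fun l hl => ?_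
    have := mul_le_mul_of_nonneg_left ((hbq j l hj hl).1 φ hφ) (hc l hl)
    linarith

end

end Vale.Agent.P030.H822
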