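import Vale.Agent.P030.H822.Node

/-!
P030, row NUM (helper822): arc models `G φ = w + φ d + O(e + M φ²/2)` (`|φ| ≤ δ`) and their closure
under constants, the circle parametrisation, `+`, `*`, inverse (a posteriori), `exp`, small
perturbations (tails of series).
-/

namespace Vale.Agent.P030.H822

open Real MeasureTheory intervalIntegral Set
open scoped BigOperators ComplexConjugate

noncomputable section

/-- `G φ = w + φ d + O(e + M φ²/2)` for `|φ| ≤ δ` -/
structure TM (δ : ℝ) (G : ℝ → ℂ) (w d : ℂ) (e M : ℝ) : Prop where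
  e0 : 0 ≤ e
  M0 : 0 ≤ M
  bd : ∀ φ : ℝ, |φ| ≤ δ → ‖G φ - w - φ * d‖ ≤ e + M * φ ^ 2 / 2

theorem sq_le_of_abs_le {φ δ : ℝ} (h : |φ| ≤ δ) : φ ^ 2 ≤ δ ^ 2 :=
  sq_le_sq' (by linarith [(abs_le.1 h).1]) (abs_le.1 h).2

namespace TM

variable {δ : ℝ} {G G' : ℝ → ℂ} {w d w' d' : ℂ} {e M e' M' : ℝ}

theorem arcOK (h : TM δ G w d e M) (hδ : 0 ≤ δ) {Db : ℝ} (hD : ‖d‖ ≤ Db) :
    ArcOK G w e Db M δ := ⟨h.e0, h.M0, hδ, d, hD, h.bd⟩

theorem mono (h : TM δ G w d e M) (hδ : 0 ≤ δ) {ew ed : ℝ} (hw : ‖w - w'‖ ≤ ew)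
    (hd : ‖d - d'‖ ≤ ed) (he : e + ew + δ * ed ≤ e') (hM : M ≤ M') : TM δ G w' d' e' M' := by
  have hew : 0 ≤ ew := (norm_nonneg _).trans hw
  have hed : 0 ≤ ed := (norm_nonneg _).trans hd
  refine ⟨?_, h.M0.trans hM, fun φ hφ => ?_⟩
  · have := mul_nonneg hδ hed
    linarith [h.e0]
  · have e1 : G φ - w' - φ * d' = (G φ - w - φ * d) + ((w - w') + φ * (d - d')) := by ring
    rw [e1]
    have h1 := h.bd φ hφ
    have h2 : ‖(w - w') + φ * (d - d')‖ ≤ ew + δ * ed := by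
      refine (norm_add_le _ _).trans (add_le_add hw ?_)
      rw [norm_mul, Complex.norm_real, Real.norm_eq_abs]
      exact mul_le_mul hφ hd (norm_nonneg _) hδ
    have h3 : M * φ ^ 2 / 2 ≤ M' * φ ^ 2 / 2 := by
      have := mul_le_mul_of_nonneg_right hM (sq_nonneg φ)
      linarith
    exact (norm_add_le _ _).trans (by linarith)

theorem weaken (h : TM δ G w d e M) (he : e ≤ e') (hM : M ≤ M') : TM δ G w d e' M' :=
  ⟨h.e0.trans he, h.M0.trans hM, fun φ hφ => (h.bd φ hφ).trans (by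
    have := mul_le_mul_of_nonneg_right hM (sq_nonneg φ)
    linarith)⟩

theorem congr (h : TM δ G w d e M) (hG : ∀ φ : ℝ, |φ| ≤ δ → G φ = G' φ) : TM δ G' w d e M :=
  ⟨h.e0, h.M0, fun φ hφ => by rw [← hG φ hφ]; exact h.bd φ hφ⟩

/-- perturbation, e.g. the tail of a series -/
theorem of_close (h : TM δ G w d e M) {τ : ℝ} (hτ0 : 0 ≤ τ)
    (hτ : ∀ φ : ℝ, |φ| ≤ δ → ‖G' φ - G φ‖ ≤ τ) : TM δ G' w d (e + τ) M :=
  ⟨add_nonneg h.e0 hτ0, h.M0, fun φ hφ => by
    have e1 : G' φ - w - φ * d = (G φ - w - φ * d) + (G' φ - G φ) := by ring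
    rw [e1]
    exact (norm_add_le _ _).trans (by linarith [h.bd φ hφ, hτ φ hφ])⟩

theorem const {c : ℂ} (h : ‖c - w‖ ≤ e) : TM δ (fun _ => c) w 0 e 0 :=
  ⟨(norm_nonneg _).trans h, le_refl 0, fun φ _ => by simpa using h⟩

theorem linear (w d : ℂ) : TM δ (fun φ => w + φ * d) w d 0 0 :=
  ⟨le_refl 0, le_refl 0, fun φ _ => by simp⟩

theorem add (h : TM δ G w d e M) (h' : TM δ G' w' d' e' M') :
    TM δ (fun φ => G φ + G' φ) (w + w') (d + d') (e + e') (M + M') :=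
  ⟨add_nonneg h.e0 h'.e0, add_nonneg h.M0 h'.M0, fun φ hφ => by
    have e1 : G φ + G' φ - (w + w') - φ * (d + d')
        = (G φ - w - φ * d) + (G' φ - w' - φ * d') := by ring
    rw [e1]
    exact (norm_add_le _ _).trans (by linarith [h.bd φ hφ, h'.bd φ hφ])⟩

theorem neg (h : TM δ G w d e M) : TM δ (fun φ => -G φ) (-w) (-d) e M :=
  ⟨h.e0, h.M0, fun φ hφ => by
    have e1 : -G φ - -w - φ * -d = -(G φ - w - φ * d) := by ring
    rw [e1, norm_neg]; exact h.bd φ hφ⟩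

theorem sub (h : TM δ G w d e M) (h' : TM δ G' w' d' e' M') :
    TM δ (fun φ => G φ - G' φ) (w - w') (d - d') (e + e') (M + M') := by
  simpa only [sub_eq_add_neg] using h.add h'.neg

theorem const_mul (h : TM δ G w d e M) (c : ℂ) :
    TM δ (fun φ => c * G φ) (c * w) (c * d) (‖c‖ * e) (‖c‖ * M) :=
  ⟨mul_nonneg (norm_nonneg _) h.e0, mul_nonneg (norm_nonneg _) h.M0, fun φ hφ => by
    have e1 : c * G φ - c * w - φ * (c * d) = c * (G φ - w - φ * d) := by ring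
    rw [e1, norm_mul]
    have := mul_le_mul_of_nonneg_left (h.bd φ hφ) (norm_nonneg c)
    linarith⟩

/-- size of `G` on the arc -/
theorem norm_le (h : TM δ G w d e M) {φ : ℝ} (hφ : |φ| ≤ δ) :
    ‖G φ‖ ≤ ‖w‖ + ‖d‖ * δ + e + M * δ ^ 2 / 2 := by
  have e1 : G φ = (G φ - w - φ * d) + (w + φ * d) := by ring
  rw [e1]
  refine (norm_add_le _ _).trans ?_
  have h1 := h.bd φ hφ
  have h2 : ‖w + φ * d‖ ≤ ‖w‖ + ‖d‖ * δ := by
    refine (norm_add_le _ _).trans ?_
    rw [norm_mul, Complex.norm_real, Real.norm_eq_abs, mul_comm]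
    have := mul_le_mul_of_nonneg_left hφ (norm_nonneg d)
    linarith
  have h3 := mul_le_mul_of_nonneg_left (sq_le_of_abs_le hφ) h.M0
  linarith

theorem mul (h : TM δ G w d e M) (h' : TM δ G' w' d' e' M') (hδ : 0 ≤ δ) {A B C : ℝ}
    (hA : ‖w‖ + ‖d‖ * δ + e + M * δ ^ 2 / 2 ≤ A) (hB : ‖w'‖ + ‖d'‖ * δ ≤ B)
    (hC : 2 * ‖d‖ * ‖d'‖ ≤ C) :
    TM δ (fun φ => G φ * G' φ) (w * w') (w * d' + w' * d) (A * e' + B * e)
      (A * M' + B * M + C) := by
  have hA0 : 0 ≤ A := by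
    refine le_trans ?_ hA
    have := h.e0; have := h.M0
    positivity
  have hB0 : 0 ≤ B := le_trans (by positivity) hB
  have hC0 : 0 ≤ C := le_trans (by positivity) hC
  refine ⟨add_nonneg (mul_nonneg hA0 h'.e0) (mul_nonneg hB0 h.e0),
    add_nonneg (add_nonneg (mul_nonneg hA0 h'.M0) (mul_nonneg hB0 h.M0)) hC0, fun φ hφ => ?_⟩
  have e1 : G φ * G' φ - w * w' - φ * (w * d' + w' * d)
      = G φ * (G' φ - w' - φ * d') + (G φ - w - φ * d) * (w' + φ * d') + φ ^ 2 * (d * d') := by ring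
  rw [e1]
  have h1 : ‖G φ * (G' φ - w' - φ * d')‖ ≤ A * (e' + M' * φ ^ 2 / 2) := by
    rw [norm_mul]
    exact mul_le_mul ((h.norm_le hφ).trans hA) (h'.bd φ hφ) (norm_nonneg _) hA0
  have h2 : ‖(G φ - w - φ * d) * (w' + φ * d')‖ ≤ (e + M * φ ^ 2 / 2) * B := by
    rw [norm_mul]
    have h3 : ‖w' + φ * d'‖ ≤ B := by
      refine le_trans ?_ hB
      refine (norm_add_le _ _).trans ?_
      rw [norm_mul, Complex.norm_real, Real.norm_eq_abs, mul_comm]
      have := mul_le_mul_of_nonneg_left hφ (norm_nonneg d')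
      linarith
    have h4 : 0 ≤ e + M * φ ^ 2 / 2 := (norm_nonneg _).trans (h.bd φ hφ)
    exact mul_le_mul (h.bd φ hφ) h3 (norm_nonneg _) h4
  have h3 : ‖(φ : ℂ) ^ 2 * (d * d')‖ ≤ C * φ ^ 2 / 2 := by
    rw [norm_mul, norm_mul, norm_pow, Complex.norm_real, Real.norm_eq_abs, sq_abs]
    have := mul_le_mul_of_nonneg_right hC (sq_nonneg φ)
    linarith
  refine (norm_add_le _ _).trans (le_trans (add_le_add ((norm_add_le _ _).trans
    (add_le_add h1 h2)) h3) (le_of_eq (by ring)))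

/-- a posteriori inverse: `G φ * (w' + φ d') = 1 + O(e + M φ²/2)` -/
theorem inv (h : TM δ (fun φ => G φ * (w' + φ * d')) 1 0 e M) (hδ : 0 ≤ δ) {η k : ℝ}
    (hη : e + M * δ ^ 2 / 2 ≤ η) (hη1 : η < 1) (hk : ‖w'‖ + ‖d'‖ * δ ≤ k * (1 - η)) :
    TM δ (fun φ => (G φ)⁻¹) w' d' (k * e) (k * M) := by
  have h1η : 0 < 1 - η := by linarith
  have hk0 : 0 ≤ k := by
    have h2 : 0 ≤ k * (1 - η) := le_trans (by positivity) hk
    by_contra hneg
    have := mul_neg_of_neg_of_pos (not_le.1 hneg) h1η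
    linarith
  refine ⟨mul_nonneg hk0 h.e0, mul_nonneg hk0 h.M0, fun φ hφ => ?_⟩
  set H : ℂ := w' + φ * d' with hH
  have h1 : ‖G φ * H - 1‖ ≤ e + M * φ ^ 2 / 2 := by simpa using h.bd φ hφ
  have h2 : e + M * φ ^ 2 / 2 ≤ η := by
    have := mul_le_mul_of_nonneg_left (sq_le_of_abs_le hφ) h.M0
    linarith
  have h3 : 1 - η ≤ ‖G φ * H‖ := by
    have : (1 : ℝ) ≤ ‖G φ * H‖ + ‖G φ * H - 1‖ := by
      have h4 : (1 : ℂ) = G φ * H - (G φ * H - 1) := by ring
      calc (1 : ℝ) = ‖(1 : ℂ)‖ := by simp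
        _ = ‖G φ * H - (G φ * H - 1)‖ := by rw [← h4]
        _ ≤ _ := norm_sub_le _ _
    linarith
  have h4 : G φ * H ≠ 0 := by
    intro hc; rw [hc, norm_zero] at h3; linarith
  have hG0 : G φ ≠ 0 := left_ne_zero_of_mul h4
  have hHn : ‖H‖ ≤ k * (1 - η) := by
    refine le_trans ?_ hk
    refine (norm_add_le _ _).trans ?_
    rw [norm_mul, Complex.norm_real, Real.norm_eq_abs, mul_comm]
    have := mul_le_mul_of_nonneg_left hφ (norm_nonneg d')
    linarith
  have e1 : (G φ)⁻¹ - w' - φ * d' = -(H * ((G φ * H - 1) / (G φ * H))) := by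
    have : H ≠ 0 := right_ne_zero_of_mul h4
    have e2 : (G φ)⁻¹ - w' - φ * d' = (G φ)⁻¹ - H := by rw [hH]; ring
    rw [e2]
    field_simp
    ring
  rw [e1, norm_neg, norm_mul, norm_div]
  have h5 : ‖G φ * H - 1‖ / ‖G φ * H‖ ≤ (e + M * φ ^ 2 / 2) / (1 - η) :=
    div_le_div₀ ((norm_nonneg _).trans h1) h1 h1η h3
  calc ‖H‖ * (‖G φ * H - 1‖ / ‖G φ * H‖)
      ≤ (k * (1 - η)) * ((e + M * φ ^ 2 / 2) / (1 - η)) :=
        mul_le_mul hHn h5 (by positivity) (mul_nonneg hk0 h1η.le)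
    _ = k * e + k * M * φ ^ 2 / 2 := by field_simp

end TM

theorem real_exp_sub_one_sub_le {y : ℝ} (hy : 0 ≤ y) : exp y - 1 - y ≤ y ^ 2 / 2 * exp y := by
  -- `(1 + y) e^{-y} ≥ 1 - y²/2`
  have hmono : MonotoneOn (fun y : ℝ => (1 + y) * exp (-y) - 1 + y ^ 2 / 2) (Ici 0) := by
    apply monotoneOn_of_deriv_nonneg (convex_Ici 0)
    · exact Continuous.continuousOn (by fun_prop)
    · exact Differentiable.differentiableOn (by fun_prop)
    · intro x hx
      rw [interior_Ici, mem_Ioi] at hx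
      have hd : HasDerivAt (fun y : ℝ => (1 + y) * exp (-y) - 1 + y ^ 2 / 2)
          (x * (1 - exp (-x))) x := by
        have h1 : HasDerivAt (fun y : ℝ => 1 + y) 1 x := (hasDerivAt_id x).const_add 1
        have h2 : HasDerivAt (fun y : ℝ => exp (-y)) (exp (-x) * -1) x :=
          (hasDerivAt_neg x).exp
        have h3 : HasDerivAt (fun y : ℝ => y ^ 2 / 2) x x := by
          have := (hasDerivAt_pow 2 x).div_const 2
          refine this.congr_deriv ?_
          norm_num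
        refine (((h1.mul h2).sub_const 1).add h3).congr_deriv ?_
        ring
      rw [hd.deriv]
      have : exp (-x) ≤ 1 := Real.exp_le_one_iff.2 (by linarith)
      exact mul_nonneg hx.le (by linarith)
  have h0 := hmono (mem_Ici.2 (le_refl 0)) (mem_Ici.2 hy) hy
  simp only [add_zero, neg_zero, Real.exp_zero, mul_one, sub_self, ne_eq, OfNat.ofNat_ne_zero,
    not_false_eq_true, zero_pow, zero_div] at h0
  have h1 : exp (-y) * exp y = 1 := by rw [← Real.exp_add]; simp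
  have h2 := mul_le_mul_of_nonneg_right h0 (exp_pos y).le
  have h3 : ((1 + y) * exp (-y) - 1 + y ^ 2 / 2) * exp y
      = (1 + y) * (exp (-y) * exp y) - exp y + y ^ 2 / 2 * exp y := by ring
  rw [h3, h1] at h2
  linarith

theorem norm_exp_sub_one_sub_le (x : ℂ) :
    ‖Complex.exp x - 1 - x‖ ≤ ‖x‖ ^ 2 / 2 * exp ‖x‖ := by
  have h := Complex.norm_exp_sub_sum_le_exp_norm_sub_sum x 2
  simp only [Finset.sum_range_succ, Finset.sum_range_zero, pow_zero, Nat.factorial, Nat.cast_one,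
    div_one, zero_add, pow_one, mul_one] at h
  have e1 : Complex.exp x - 1 - x = Complex.exp x - (1 + x) := by ring
  rw [e1]
  refine h.trans (le_trans (le_of_eq (by ring)) (real_exp_sub_one_sub_le (norm_nonneg x)))

/-- `|e^{iφ} - 1 - iφ| ≤ φ²/2` -/
theorem norm_expI_sub_one_sub_le (φ : ℝ) :
    ‖Complex.exp (φ * Complex.I) - 1 - φ * Complex.I‖ ≤ φ ^ 2 / 2 := by
  -- nonnegative case
  have key : ∀ x : ℝ, 0 ≤ x → ‖Complex.exp (x * Complex.I) - 1 - x * Complex.I‖ ≤ x ^ 2 / 2 := by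
    intro x hx
    have hd : ∀ y : ℝ, HasDerivAt (fun y : ℝ => Complex.exp (y * Complex.I) - 1 - y * Complex.I)
        (Complex.I * (Complex.exp (y * Complex.I) - 1)) y := by
      intro y
      have h1 : HasDerivAt (fun y : ℝ => (y : ℂ) * Complex.I) (1 * Complex.I) y :=
        (Complex.ofRealCLM.hasDerivAt (x := y)).mul_const Complex.I
      have h2 := ((h1.cexp).sub_const (1 : ℂ)).sub h1
      refine h2.congr_deriv ?_
      ring
    refine image_norm_le_of_norm_deriv_right_le_deriv_boundary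
      (f := fun y : ℝ => Complex.exp (y * Complex.I) - 1 - y * Complex.I)
      (f' := fun y => Complex.I * (Complex.exp (y * Complex.I) - 1))
      (a := 0) (b := x) (B := fun y => y ^ 2 / 2) (B' := fun y => y)
      (fun y _ => (hd y).continuousAt.continuousWithinAt)
      (fun y _ => (hd y).hasDerivWithinAt) ?_ ?_ ?_ (right_mem_Icc.2 hx)
    · simp
    · intro y
      have := (hasDerivAt_pow 2 y).div_const 2
      refine this.congr_deriv ?_
      norm_num
    · intro y hy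
      have h1 : ‖Complex.exp (Complex.I * y) - 1‖ ≤ ‖y‖ :=
        Real.norm_exp_I_mul_ofReal_sub_one_le
      rw [norm_mul, Complex.norm_I, one_mul, mul_comm (y : ℂ)]
      rw [Real.norm_eq_abs, abs_of_nonneg hy.1] at h1
      exact h1
  rcases le_total 0 φ with h | h
  · exact key φ h
  · have h1 := key (-φ) (by linarith)
    have e1 : Complex.exp (((-φ : ℝ) : ℂ) * Complex.I) - 1 - ((-φ : ℝ) : ℂ) * Complex.I
        = conj (Complex.exp (φ * Complex.I) - 1 - φ * Complex.I) := by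
      simp only [map_sub, map_one, map_mul, Complex.conj_ofReal, Complex.conj_I,
        ← Complex.exp_conj]
      push_cast
      ring_nf
    rw [e1, Complex.norm_conj] at h1
    simpa using h1

namespace TM

variable {δ : ℝ} {G G' : ℝ → ℂ} {w d w' d' : ℂ} {e M e' M' : ℝ}

/-- the circle parametrisation -/
theorem circle {r θ : ℝ} (hr : 0 ≤ r) (hw : ‖circleMap 0 r θ - w‖ ≤ e) (hδ : 0 ≤ δ) :
    TM δ (fun φ => circleMap 0 r (θ + φ)) w (Complex.I * w) (e * (1 + δ)) r := by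
  have he : 0 ≤ e := (norm_nonneg _).trans hw
  refine ⟨by positivity, hr, fun φ hφ => ?_⟩
  set z0 := circleMap 0 r θ with hz0
  have hz0n : ‖z0‖ = r := by rw [hz0, norm_circleMap_zero, abs_of_nonneg hr]
  have e1 : circleMap 0 r (θ + φ) = z0 * Complex.exp (φ * Complex.I) := by
    rw [hz0, circleMap_zero_eq, circleMap_zero_eq, mul_assoc, ← Complex.exp_add]
    congr 2
    push_cast
    ring
  have e2 : circleMap 0 r (θ + φ) - w - φ * (Complex.I * w)
      = z0 * (Complex.exp (φ * Complex.I) - 1 - φ * Complex.I)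
        + (z0 - w) * (1 + φ * Complex.I) := by
    rw [e1]; ring
  rw [e2]
  refine (norm_add_le _ _).trans ?_
  rw [norm_mul, norm_mul, hz0n]
  have h1 : r * ‖Complex.exp (φ * Complex.I) - 1 - φ * Complex.I‖ ≤ r * (φ ^ 2 / 2) :=
    mul_le_mul_of_nonneg_left (norm_expI_sub_one_sub_le φ) hr
  have h2 : ‖z0 - w‖ * ‖1 + φ * Complex.I‖ ≤ e * (1 + δ) := by
    refine mul_le_mul hw ?_ (norm_nonneg _) he
    refine (norm_add_le _ _).trans ?_
    rw [norm_one, norm_mul, Complex.norm_I, mul_one, Complex.norm_real, Real.norm_eq_abs]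
    linarith
  linarith

/-- exponential -/
theorem exp (h : TM δ G w d e M) (hδ : 0 ≤ δ) {W : ℂ} {eW aW ad X E k : ℝ}
    (hW : ‖Complex.exp w - W‖ ≤ eW) (haW : ‖W‖ ≤ aW) (had : ‖d‖ ≤ ad)
    (hX : ad * δ + (e + M * δ ^ 2 / 2) ≤ X) (hE : 1 ≤ E * (1 - X)) (hX1 : X < 1)
    (hk : 1 + (2 * δ * ad + (e + M * δ ^ 2 / 2)) * E / 2 ≤ k) :
    TM δ (fun φ => Complex.exp (G φ)) W (W * d) (eW * E + aW * (k * e))
      (aW * (k * M + ad ^ 2 * E)) := by
  have he := h.e0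
  have hM := h.M0
  have heW : 0 ≤ eW := (norm_nonneg _).trans hW
  have haW0 : 0 ≤ aW := (norm_nonneg _).trans haW
  have had0 : 0 ≤ ad := (norm_nonneg _).trans had
  have h1X : 0 < 1 - X := by linarith
  have hE0 : 0 < E := by
    by_contra hneg
    have : E * (1 - X) ≤ 0 := mul_nonpos_of_nonpos_of_nonneg (not_lt.1 hneg) h1X.le
    linarith
  have hexpX : Real.exp X ≤ E := by
    have h1 : 1 - X ≤ Real.exp (-X) := by
      have := Real.add_one_le_exp (-X); linarith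
    have h2 : Real.exp (-X) * Real.exp X = 1 := by rw [← Real.exp_add]; simp
    have h3 : (1 - X) * Real.exp X ≤ 1 := by
      have := mul_le_mul_of_nonneg_right h1 (Real.exp_pos X).le
      linarith
    have h4 : (1 - X) * Real.exp X ≤ (1 - X) * E := by linarith
    exact le_of_mul_le_mul_left h4 h1X
  have hρ0 : 0 ≤ e + M * δ ^ 2 / 2 := by positivity
  have hk0 : 0 ≤ k := le_trans (by positivity) hk
  refine ⟨by positivity, by positivity, fun φ hφ => ?_⟩
  set x : ℂ := G φ - w with hx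
  set rr : ℂ := G φ - w - φ * d with hrr
  have hr1 : ‖rr‖ ≤ e + M * φ ^ 2 / 2 := h.bd φ hφ
  have hMsq := mul_le_mul_of_nonneg_left (sq_le_of_abs_le hφ) hM
  have hr2 : ‖rr‖ ≤ e + M * δ ^ 2 / 2 := by linarith
  have hφd : ‖(φ : ℂ) * d‖ ≤ |φ| * ad := by
    rw [norm_mul, Complex.norm_real, Real.norm_eq_abs]
    exact mul_le_mul_of_nonneg_left had (abs_nonneg _)
  have hxn : ‖x‖ ≤ |φ| * ad + ‖rr‖ := by
    have : x = φ * d + rr := by rw [hx, hrr]; ring
    rw [this]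
    exact (norm_add_le _ _).trans (by linarith)
  have hφad : |φ| * ad ≤ δ * ad := mul_le_mul_of_nonneg_right hφ had0
  have hxX : ‖x‖ ≤ X := by linarith
  have hexpx : Real.exp ‖x‖ ≤ E := (Real.exp_le_exp.2 hxX).trans hexpX
  have hxsq : ‖x‖ ^ 2 ≤ φ ^ 2 * ad ^ 2
      + (2 * δ * ad + (e + M * δ ^ 2 / 2)) * (e + M * φ ^ 2 / 2) := by
    have h1 : ‖x‖ ^ 2 ≤ (|φ| * ad + ‖rr‖) ^ 2 := pow_le_pow_left₀ (norm_nonneg _) hxn 2
    have h2 : (|φ| * ad + ‖rr‖) ^ 2 = φ ^ 2 * ad ^ 2 + (2 * (|φ| * ad) + ‖rr‖) * ‖rr‖ := by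
      have : |φ| ^ 2 = φ ^ 2 := sq_abs φ
      rw [← this]; ring
    have h3 : (2 * (|φ| * ad) + ‖rr‖) * ‖rr‖
        ≤ (2 * δ * ad + (e + M * δ ^ 2 / 2)) * (e + M * φ ^ 2 / 2) := by
      refine mul_le_mul (by linarith) hr1 (norm_nonneg _) ?_
      positivity
    linarith
  have e1 : Complex.exp (G φ) - W - φ * (W * d)
      = (Complex.exp w - W) * Complex.exp x + W * (rr + (Complex.exp x - 1 - x)) := by
    have : G φ = w + x := by rw [hx]; ring
    rw [this, Complex.exp_add, hrr, hx]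
    ring
  rw [e1]
  have h1 : ‖(Complex.exp w - W) * Complex.exp x‖ ≤ eW * E := by
    rw [norm_mul]
    refine mul_le_mul hW ?_ (norm_nonneg _) heW
    exact (Complex.norm_exp_le_exp_norm x).trans hexpx
  have h2 : ‖W * (rr + (Complex.exp x - 1 - x))‖ ≤ aW * ((e + M * φ ^ 2 / 2)
      + (φ ^ 2 * ad ^ 2 + (2 * δ * ad + (e + M * δ ^ 2 / 2)) * (e + M * φ ^ 2 / 2)) / 2 * E) := by
    rw [norm_mul]
    refine mul_le_mul haW ((norm_add_le _ _).trans (add_le_add hr1 ?_)) (norm_nonneg _) haW0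
    refine (norm_exp_sub_one_sub_le x).trans ?_
    exact mul_le_mul (by linarith) hexpx (Real.exp_pos _).le (by positivity)
  have h3 : aW * ((e + M * φ ^ 2 / 2)
      + (φ ^ 2 * ad ^ 2 + (2 * δ * ad + (e + M * δ ^ 2 / 2)) * (e + M * φ ^ 2 / 2)) / 2 * E)
      ≤ aW * (k * (e + M * φ ^ 2 / 2) + φ ^ 2 * ad ^ 2 / 2 * E) := by
    refine mul_le_mul_of_nonneg_left ?_ haW0
    have h4 : 0 ≤ e + M * φ ^ 2 / 2 := by positivity
    have h5 := mul_le_mul_of_nonneg_right hk h4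
    linarith
  refine (norm_add_le _ _).trans ((add_le_add h1 (h2.trans h3)).trans (le_of_eq ?_))
  ring

end TM

end

end Vale.Agent.P030.H822
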